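import Crest.Agent.FK.Ex

/-! Iterated level-one projections over several layers, a fourth moment bound for the associated
decoupled chaos with bounded kernels, and the recursion for the clipped mass. -/

set_option autoImplicit false
set_option linter.unusedSectionVars false
set_option linter.unusedVariables false

namespace Crest.Agent.FK
open Finset

variable {ι : Type} [Fintype ι] [DecidableEq ι] (q : Pr)
variable {β : Type} [Fintype β] [DecidableEq β] (B : β → Finset ι)

/-- iterated projection along a tuple of blocks, one in each layer -/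
noncomputable def PT : (k : ℕ) → (Fin k → Finset ι) → (Fin k → β) → ((ι → Bool) → ℝ) →
    (ι → Bool) → ℝ
  | 0, _, _, g => g
  | k + 1, L, T, g => P q (L 0) (B (T 0)) (PT k (Fin.tail L) (Fin.tail T) g)

lemma PT_cons (k : ℕ) (L : Fin (k + 1) → Finset ι) (v : β) (T : Fin k → β)
    (g : (ι → Bool) → ℝ) :
    PT q B (k + 1) L (Fin.cons v T) g = P q (L 0) (B v) (PT q B k (Fin.tail L) T g) := by
  simp [PT]

/-- layers of pairwise disjoint blocks -/
structure Lay {k : ℕ} (L : Fin k → Finset ι) (V : Fin k → Finset β) : Prop where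
  sub : ∀ j, ∀ v ∈ V j, B v ⊆ L j
  disj : ∀ j, ∀ u ∈ V j, ∀ v ∈ V j, u ≠ v → Disjoint (B u) (B v)
  lay : ∀ i j, i ≠ j → Disjoint (L i) (L j)

lemma Lay.tail {k : ℕ} {L : Fin (k + 1) → Finset ι} {V : Fin (k + 1) → Finset β}
    (h : Lay B L V) : Lay B (Fin.tail L) (Fin.tail V) :=
  ⟨fun j => h.sub j.succ, fun j => h.disj j.succ,
    fun i j hij => h.lay i.succ j.succ (fun e => hij (Fin.succ_injective _ e))⟩

lemma Lay.tail_disj {k : ℕ} {L : Fin (k + 1) → Finset ι} {V : Fin (k + 1) → Finset β}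
    (h : Lay B L V) (j : Fin k) : Disjoint (Fin.tail L j) (L 0) :=
  h.lay j.succ 0 (Fin.succ_ne_zero j)

lemma sum_tup {k : ℕ} (V : Fin (k + 1) → Finset β) (Φ : (Fin (k + 1) → β) → ℝ) :
    ∑ T ∈ Fintype.piFinset V, Φ T
      = ∑ v ∈ V 0, ∑ T ∈ Fintype.piFinset (Fin.tail V), Φ (Fin.cons v T) := by
  rw [← Finset.sum_product']
  refine Finset.sum_nbij' (fun T => (T 0, Fin.tail T)) (fun z => Fin.cons z.1 z.2) ?_ ?_ ?_ ?_ ?_
  · intro T hT
    rw [Fin.mem_piFinset_iff_zero_tail] at hT
    exact Finset.mem_product.mpr hT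
  · intro z hz
    rw [Fin.mem_piFinset_iff_zero_tail]
    simpa using hz
  · intro T _; exact Fin.cons_self_tail T
  · intro z _; simp
  · intro T _; rw [Fin.cons_self_tail]

lemma cons_mem {k : ℕ} {V : Fin (k + 1) → Finset β} {v : β} {T : Fin k → β} (hv : v ∈ V 0)
    (hT : T ∈ Fintype.piFinset (Fin.tail V)) :
    (Fin.cons v T : Fin (k + 1) → β) ∈ Fintype.piFinset V := by
  rw [Fin.mem_piFinset_iff_zero_tail]; simpa using ⟨hv, by simpa using hT⟩

lemma sum_tup_zero (V : Fin 0 → Finset β) (Φ : (Fin 0 → β) → ℝ) :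
    ∑ T ∈ Fintype.piFinset V, Φ T = Φ Fin.elim0 := by
  rw [Finset.sum_eq_single Fin.elim0]
  · intro b _ hb; exact absurd (Subsingleton.elim _ _) hb
  · intro h; exact absurd (Fintype.mem_piFinset.mpr fun j => j.elim0) h

lemma PT_sub : ∀ (k : ℕ) (L : Fin k → Finset ι) (T : Fin k → β) (f g : (ι → Bool) → ℝ),
    PT q B k L T (fun x => f x - g x) = fun x => PT q B k L T f x - PT q B k L T g x
  | 0, _, _, _, _ => rfl
  | k + 1, L, T, f, g => by simp only [PT]; rw [PT_sub k, P_sub]

lemma PT_mul_left : ∀ (k : ℕ) (L : Fin k → Finset ι) (T : Fin k → β) (c : ℝ)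
    (f : (ι → Bool) → ℝ), PT q B k L T (fun x => c * f x) = fun x => c * PT q B k L T f x
  | 0, _, _, _, _ => rfl
  | k + 1, L, T, c, f => by simp only [PT]; rw [PT_mul_left k, P_mul_left]

lemma PT_sum {α : Type*} (s : Finset α) (f : α → (ι → Bool) → ℝ) :
    ∀ (k : ℕ) (L : Fin k → Finset ι) (T : Fin k → β),
    PT q B k L T (fun x => ∑ a ∈ s, f a x) = fun x => ∑ a ∈ s, PT q B k L T (f a) x
  | 0, _, _ => rfl
  | k + 1, L, T => by simp only [PT]; rw [PT_sum s f k, P_sum]

lemma PT_P (L' B' : Finset ι) : ∀ (k : ℕ) (L : Fin k → Finset ι) (T : Fin k → β)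
    (g : (ι → Bool) → ℝ), PT q B k L T (P q L' B' g) = P q L' B' (PT q B k L T g)
  | 0, _, _, _ => rfl
  | k + 1, L, T, g => by simp only [PT]; rw [PT_P L' B' k, P_comm]

lemma PT_adj : ∀ (k : ℕ) (L : Fin k → Finset ι) (T : Fin k → β) (f g : (ι → Bool) → ℝ),
    E q (fun x => PT q B k L T f x * g x) = E q (fun x => f x * PT q B k L T g x)
  | 0, _, _, _, _ => rfl
  | k + 1, L, T, f, g => by simp only [PT]; rw [P_adj, PT_adj k, PT_P]

lemma PT_subst {A : Finset ι} (ω : ι → Bool) : ∀ (k : ℕ) (L : Fin k → Finset ι) (T : Fin k → β)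
    (g : (ι → Bool) → ℝ), (∀ j, Disjoint (L j) A) →
    PT q B k L T (fun x => g (A.piecewise ω x)) = fun x => PT q B k L T g (A.piecewise ω x)
  | 0, _, _, _, _ => rfl
  | k + 1, L, T, g, h => by
    simp only [PT]; rw [PT_subst ω k (Fin.tail L) _ _ (fun j => h j.succ), P_subst q _ _ (h 0)]

lemma bessel_PT : ∀ (k : ℕ) (L : Fin k → Finset ι) (V : Fin k → Finset β), Lay B L V →
    ∀ g : (ι → Bool) → ℝ,
    ∑ T ∈ Fintype.piFinset V, E q (fun x => PT q B k L T g x ^ 2) ≤ E q (fun x => g x ^ 2)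
  | 0, L, V, _, g => by rw [sum_tup_zero]; exact le_rfl
  | k + 1, L, V, h, g => by
    rw [sum_tup, Finset.sum_comm]
    refine le_trans (Finset.sum_le_sum fun T _ => ?_) (bessel_PT k _ _ h.tail g)
    simp only [PT_cons]
    exact bessel_E q (V 0) (h.sub 0) (h.disj 0) _

/-- fourth moment of the decoupled chaos with kernels dominated by the projections of a bounded
vector-valued function -/
theorem fourth : ∀ (k : ℕ) (L : Fin k → Finset ι) (V : Fin k → Finset β), Lay B L V →
    ∀ (H : Type) [Fintype H] (w : H → ℝ), (∀ h, 0 ≤ w h) →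
    ∀ (f : H → (ι → Bool) → ℝ) (σ : (Fin k → β) → H → (ι → Bool) → ℝ) (Bd : ℝ),
    (∀ x, ∑ h, w h * f h x ^ 2 ≤ Bd) →
    (∀ T ∈ Fintype.piFinset V, ∀ h x, σ T h x ^ 2 ≤ PT q B k L T (f h) x ^ 2) →
    E q (fun x => (∑ h, w h * (∑ T ∈ Fintype.piFinset V, PT q B k L T (σ T h) x) ^ 2) ^ 2)
      ≤ 67 ^ k * Bd * E q (fun x => ∑ h, w h * f h x ^ 2)
  | 0, L, V, _, H, _, w, hw, f, σ, Bd, hBd, hσ => by
    simp only [sum_tup_zero, pow_zero, one_mul]
    rw [← E_mul_left]
    refine E_mono q fun x => ?_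
    have h1 : ∑ h, w h * PT q B 0 L Fin.elim0 (σ Fin.elim0 h) x ^ 2 ≤ ∑ h, w h * f h x ^ 2 :=
      Finset.sum_le_sum fun h _ => mul_le_mul_of_nonneg_left (hσ _ (Fintype.mem_piFinset.mpr fun j => j.elim0) h x) (hw h)
    have h0 : 0 ≤ ∑ h, w h * PT q B 0 L Fin.elim0 (σ Fin.elim0 h) x ^ 2 :=
      Finset.sum_nonneg fun h _ => mul_nonneg (hw h) (sq_nonneg _)
    have h2 := hBd x
    nlinarith
  | k + 1, L, V, hL, H, _, w, hw, f, σ, Bd, hBd, hσ => by
    have hBd0 : 0 ≤ Bd := le_trans
      (Finset.sum_nonneg fun h _ => mul_nonneg (hw h) (sq_nonneg _)) (hBd (fun _ => true))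
    set Y : β → H → (ι → Bool) → ℝ := fun v h x =>
      ∑ T ∈ Fintype.piFinset (Fin.tail V), PT q B k (Fin.tail L) T (σ (Fin.cons v T) h) x with hY
    have e0 : ∀ h x, ∑ T ∈ Fintype.piFinset V, PT q B (k + 1) L T (σ T h) x
        = ∑ v ∈ V 0, P q (L 0) (B v) (Y v h) x := fun h x => by
      rw [sum_tup]
      refine Finset.sum_congr rfl fun v _ => ?_
      simp only [hY, P_sum, PT_cons]
    simp only [e0]
    set M := E q (fun x => ∑ h, w h * f h x ^ 2) with hM
    -- Bessel for the vector valued function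
    have bes : ∀ x, ∑ v ∈ V 0, Ex q (L 0) (fun x => ∑ h, w h * P q (L 0) (B v) (f h) x ^ 2) x
        ≤ Ex q (L 0) (fun x => ∑ h, w h * f h x ^ 2) x := fun x => by
      simp only [Ex_sum, Ex_mul_left]
      rw [Finset.sum_comm]
      refine Finset.sum_le_sum fun h _ => ?_
      rw [← Finset.mul_sum]
      exact mul_le_mul_of_nonneg_left (bessel q (V 0) (hL.sub 0) (hL.disj 0) _ x) (hw h)
    have besE : ∑ v ∈ V 0, E q (fun x => ∑ h, w h * P q (L 0) (B v) (f h) x ^ 2) ≤ M := by
      have := E_mono q bes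
      rw [E_sum] at this
      simp only [E_Ex] at this
      exact this
    -- first term
    have t1 : E q (fun x => (∑ v ∈ V 0, Ex q (L 0) (fun x => ∑ h, w h * Y v h x ^ 2) x) ^ 2)
        ≤ 67 ^ k * Bd * M := by
      have key := fourth k (Fin.tail L) (Fin.tail V) hL.tail (H × β × (ι → Bool))
        (fun z => w z.1 * (if z.2.1 ∈ V 0 then 1 else 0) * wt q z.2.2)
        (fun z => mul_nonneg (mul_nonneg (hw _) (by split_ifs <;> norm_num)) (wt_pos q _).le)
        (fun z x => P q (L 0) (B z.2.1) (f z.1) ((L 0).piecewise z.2.2 x))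
        (fun T z x => if z.2.1 ∈ V 0 then σ (Fin.cons z.2.1 T) z.1 ((L 0).piecewise z.2.2 x)
          else 0) Bd ?_ ?_
      · have r : ∀ (G : β → H → (ι → Bool) → ℝ) (x : ι → Bool),
            ∑ z : H × β × (ι → Bool), w z.1 * (if z.2.1 ∈ V 0 then 1 else 0) * wt q z.2.2
              * G z.2.1 z.1 ((L 0).piecewise z.2.2 x) ^ 2
            = ∑ v ∈ V 0, Ex q (L 0) (fun x => ∑ h, w h * G v h x ^ 2) x := fun G x => by
          rw [Fintype.sum_prod_type, Finset.sum_comm, Fintype.sum_prod_type]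
          rw [← Finset.sum_filter_add_sum_filter_not univ (fun v => v ∈ V 0)]
          rw [Finset.filter_mem_eq_inter, Finset.univ_inter]
          rw [Finset.sum_eq_zero (s := filter (fun v => v ∉ V 0) univ), add_zero]
          · refine Finset.sum_congr rfl fun v hv => ?_
            unfold Ex E
            refine Finset.sum_congr rfl fun ω _ => ?_
            rw [Finset.mul_sum]
            refine Finset.sum_congr rfl fun h _ => ?_
            simp only [if_pos hv]; ring
          · intro v hv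
            have hv' := (Finset.mem_filter.mp hv).2
            simp [hv']
        have r1 : ∀ x, ∑ z : H × β × (ι → Bool),
            w z.1 * (if z.2.1 ∈ V 0 then 1 else 0) * wt q z.2.2 *
            (∑ T ∈ Fintype.piFinset (Fin.tail V), PT q B k (Fin.tail L) T
              (fun x => if z.2.1 ∈ V 0 then σ (Fin.cons z.2.1 T) z.1 ((L 0).piecewise z.2.2 x)
                else 0) x) ^ 2
            = ∑ v ∈ V 0, Ex q (L 0) (fun x => ∑ h, w h * Y v h x ^ 2) x := fun x => by
          rw [← r Y x]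
          refine Finset.sum_congr rfl fun z _ => ?_
          by_cases hz : z.2.1 ∈ V 0
          · simp only [if_pos hz, hY]
            congr 2
            refine Finset.sum_congr rfl fun T _ => ?_
            rw [PT_subst q B z.2.2 k _ T _ hL.tail_disj]
          · simp [hz]
        simp only [r1, r (fun v h => P q (L 0) (B v) (f h))] at key
        refine key.trans (mul_le_mul_of_nonneg_left ?_ (by positivity))
        refine (E_mono q bes).trans (le_of_eq (E_Ex q _ _))
      · intro x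
        have r : ∑ z : H × β × (ι → Bool), w z.1 * (if z.2.1 ∈ V 0 then 1 else 0) * wt q z.2.2
              * P q (L 0) (B z.2.1) (f z.1) ((L 0).piecewise z.2.2 x) ^ 2
            = ∑ v ∈ V 0, Ex q (L 0) (fun x => ∑ h, w h * P q (L 0) (B v) (f h) x ^ 2) x := by
          rw [Fintype.sum_prod_type, Finset.sum_comm, Fintype.sum_prod_type]
          rw [← Finset.sum_filter_add_sum_filter_not univ (fun v => v ∈ V 0)]
          rw [Finset.filter_mem_eq_inter, Finset.univ_inter]
          rw [Finset.sum_eq_zero (s := filter (fun v => v ∉ V 0) univ), add_zero]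
          · refine Finset.sum_congr rfl fun v hv => ?_
            unfold Ex E
            refine Finset.sum_congr rfl fun ω _ => ?_
            rw [Finset.mul_sum]
            refine Finset.sum_congr rfl fun h _ => ?_
            simp only [if_pos hv]; ring
          · intro v hv
            have hv' := (Finset.mem_filter.mp hv).2
            simp [hv']
        rw [r]
        exact (bes x).trans (Ex_le_const q _ hBd x)
      · intro T hT z x
        by_cases hz : z.2.1 ∈ V 0
        · simp only [if_pos hz]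
          rw [PT_subst q B z.2.2 k _ T _ hL.tail_disj]
          have := hσ _ (cons_mem hz hT) z.1 ((L 0).piecewise z.2.2 x)
          rw [PT_cons, ← PT_P] at this
          exact this
        · simp only [if_neg hz]; simp [sq_nonneg]
    -- second term
    have t2 : ∀ v ∈ V 0, E q (fun x => (∑ h, w h * Y v h x ^ 2) ^ 2)
        ≤ 67 ^ k * (4 * Bd) * E q (fun x => ∑ h, w h * P q (L 0) (B v) (f h) x ^ 2) := by
      intro v hv
      refine fourth k (Fin.tail L) (Fin.tail V) hL.tail H w hw
        (fun h => P q (L 0) (B v) (f h)) (fun T h => σ (Fin.cons v T) h) (4 * Bd) ?_ ?_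
      · intro x
        have h1 := P_wsq q w hw (L 0) (B v) f x
        have h2 := Ex_le_const q (L 0 \ B v) hBd x
        have h3 := Ex_le_const q (L 0) hBd x
        linarith
      · intro T hT h x
        have := hσ _ (cons_mem hv hT) h x
        rw [PT_cons, ← PT_P] at this
        exact this
    have t2' : ∀ v ∈ V 0, E q (fun x => (∑ h, w h * P q (L 0) (B v) (Y v h) x ^ 2) ^ 2)
        ≤ 16 * E q (fun x => (∑ h, w h * Y v h x ^ 2) ^ 2) := by
      intro v hv
      have h1 : ∀ x, (∑ h, w h * P q (L 0) (B v) (Y v h) x ^ 2) ^ 2 ≤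
          8 * Ex q (L 0 \ B v) (fun x => (∑ h, w h * Y v h x ^ 2) ^ 2) x
          + 8 * Ex q (L 0) (fun x => (∑ h, w h * Y v h x ^ 2) ^ 2) x := fun x => by
        have a1 := P_wsq q w hw (L 0) (B v) (Y v) x
        have a2 := Ex_sq q (L 0 \ B v) (fun x => ∑ h, w h * Y v h x ^ 2) x
        have a3 := Ex_sq q (L 0) (fun x => ∑ h, w h * Y v h x ^ 2) x
        have a0 : 0 ≤ ∑ h, w h * P q (L 0) (B v) (Y v h) x ^ 2 :=
          Finset.sum_nonneg fun h _ => mul_nonneg (hw h) (sq_nonneg _)
        have a4 := pow_le_pow_left₀ a0 a1 2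
        nlinarith [sq_nonneg (Ex q (L 0 \ B v) (fun x => ∑ h, w h * Y v h x ^ 2) x
          - Ex q (L 0) (fun x => ∑ h, w h * Y v h x ^ 2) x)]
      have := E_mono q h1
      rw [E_add, E_mul_left, E_mul_left, E_Ex, E_Ex] at this
      linarith
    have t1' : ∀ x, (∑ v ∈ V 0, Ex q (L 0) (fun x => ∑ h, w h * P q (L 0) (B v) (Y v h) x ^ 2) x)
        ^ 2 ≤ (∑ v ∈ V 0, Ex q (L 0) (fun x => ∑ h, w h * Y v h x ^ 2) x) ^ 2 := fun x => by
      refine pow_le_pow_left₀ (Finset.sum_nonneg fun v _ => Ex_nonneg q _ (fun x =>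
        Finset.sum_nonneg fun h _ => mul_nonneg (hw h) (sq_nonneg _)) x)
        (Finset.sum_le_sum fun v hv => ?_) 2
      simp only [Ex_sum, Ex_mul_left]
      exact Finset.sum_le_sum fun h _ =>
        mul_le_mul_of_nonneg_left (P_contr q (hL.sub 0 v hv) _ x) (hw h)
    have main := E_mono q fun x => (fourth_layer q w hw Y (V 0) (hL.sub 0) (hL.disj 0) x).1
    rw [E_Ex, E_add, E_mul_left, E_sum] at main
    simp only [E_Ex] at main
    have m1 := (E_mono q t1').trans t1
    have m2 : ∑ v ∈ V 0, E q (fun x => (∑ h, w h * P q (L 0) (B v) (Y v h) x ^ 2) ^ 2)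
        ≤ 64 * (67 ^ k * Bd) * M := by
      refine le_trans (Finset.sum_le_sum fun v hv => (t2' v hv).trans
        (mul_le_mul_of_nonneg_left (t2 v hv) (by norm_num))) ?_
      rw [← Finset.mul_sum, ← Finset.mul_sum]
      have : (0 : ℝ) ≤ 67 ^ k * (4 * Bd) := by positivity
      nlinarith [mul_le_mul_of_nonneg_left besE this]
    rw [pow_succ]
    linarith

/-- clipping at level `θ` -/
noncomputable def clip (θ u : ℝ) : ℝ := max (-θ) (min θ u)

lemma clip_sq_le {θ : ℝ} (hθ : 0 ≤ θ) (u : ℝ) : clip θ u ^ 2 ≤ θ ^ 2 ∧ clip θ u ^ 2 ≤ u ^ 2 := by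
  unfold clip
  rcases le_total θ u with h | h
  · rw [min_eq_left h, max_eq_right (by linarith)]; constructor <;> nlinarith
  · rw [min_eq_right h]
    rcases le_total (-θ) u with h' | h'
    · rw [max_eq_right h']; constructor <;> nlinarith
    · rw [max_eq_left h']; constructor <;> nlinarith

lemma clip_add_sq {θ : ℝ} (hθ : 0 ≤ θ) (a b : ℝ) :
    clip θ (a + b) ^ 2 ≤ 2 * θ * |a| + 2 * b ^ 2 := by
  obtain ⟨h1, h2⟩ := clip_sq_le hθ (a + b)
  have h3 := abs_nonneg a
  have h4 : |a| ^ 2 = a ^ 2 := sq_abs a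
  rcases le_total θ |a| with h | h
  · nlinarith [sq_nonneg b]
  · nlinarith [sq_nonneg (a - b)]

lemma clip_of_abs_le {θ u : ℝ} (h : |u| ≤ θ) : clip θ u = u := by
  obtain ⟨h1, h2⟩ := abs_le.mp h
  unfold clip; rw [min_eq_right h2, max_eq_right h1]

lemma soft_lip {θ : ℝ} (hθ : 0 ≤ θ) (a b : ℝ) :
    |(a - clip θ a) - (b - clip θ b)| ≤ |a - b| := by
  unfold clip
  rw [abs_le]
  have h1 := le_abs_self (a - b)
  have h2 := neg_abs_le (a - b)
  simp only [max_def, min_def]
  constructor <;> split_ifs <;> linarith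

lemma soft_diff {θ : ℝ} (hθ : 0 < θ) (a b : ℝ) :
    θ * |(a - clip θ a) - (b - clip θ b)| ≤ |a - b| * |a| + |a - b| * |b| := by
  have h0 := abs_nonneg (a - b)
  have ha := abs_nonneg a
  have hb := abs_nonneg b
  have h1 := soft_lip hθ.le a b
  by_cases h : |a| ≤ θ ∧ |b| ≤ θ
  · rw [clip_of_abs_le h.1, clip_of_abs_le h.2]; simp; positivity
  · have : θ ≤ |a| + |b| := by
      by_contra hc
      exact h ⟨by linarith, by linarith⟩
    nlinarith [abs_nonneg ((a - clip θ a) - (b - clip θ b))]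

lemma soft_abs_le {θ : ℝ} (hθ : 0 ≤ θ) (a : ℝ) : |a - clip θ a| ≤ |a| := by
  have := soft_lip hθ a 0
  rwa [clip_of_abs_le (u := 0) (by simpa using hθ), sub_zero, sub_zero, sub_zero] at this

/-- `L¹` norm of a projection against resampling of the block -/
lemma E_abs_P {L B' : Finset ι} (hB : B' ⊆ L) (g : (ι → Bool) → ℝ) :
    E q (fun x => |P q L B' g x|) ≤ E q (fun x => E q (fun ω => |g x - g (B'.piecewise ω x)|)) := by
  have e : P q L B' g = Ex q (L \ B') (fun x => g x - Ex q B' g x) := by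
    funext x; rw [Ex_sub, Ex_Ex, Finset.sdiff_union_of_subset hB]; rfl
  rw [e]
  refine (E_mono q (Ex_abs q _ _)).trans ?_
  rw [E_Ex]
  refine E_mono q fun x => ?_
  refine le_trans (le_of_eq ?_) (E_abs q _)
  rw [E_sub, E_const]; rfl

/-- resampling influence of a block -/
noncomputable def binf (A : Finset ι) (f : (ι → Bool) → ℝ) : ℝ :=
  E q (fun ω => E q (fun x => (f x - f (A.piecewise ω x)) ^ 2))

lemma young4 {s : ℝ} (hs : 0 < s) (h l : ℝ) (hh : h = 0 ∨ h = 1 ∨ h = -1) :
    h * l ≤ s * h ^ 2 + (l ^ 2) ^ 2 / s ^ 3 := by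
  have h0 : 0 ≤ (l ^ 2) ^ 2 / s ^ 3 := by positivity
  have key : |l| ≤ s + (l ^ 2) ^ 2 / s ^ 3 := by
    rcases le_total |l| s with h1 | h1
    · linarith
    · have : |l| ≤ (l ^ 2) ^ 2 / s ^ 3 := by
        rw [le_div_iff₀ (by positivity), ← sq_abs l]
        have := pow_le_pow_left₀ hs.le h1 3
        have h2 := abs_nonneg l
        nlinarith
      linarith
  have h1 := le_abs_self l
  have h2 := neg_abs_le l
  rcases hh with rfl | rfl | rfl <;> simp <;> linarith

/-- correlation of the projections of `f` with those of a difference of `f` -/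
lemma corr_le (k : ℕ) (L : Fin k → Finset ι) (V : Fin k → Finset β) (hL : Lay B L V)
    (f : (ι → Bool) → ℝ) (hf : ∀ x, f x = 0 ∨ f x = 1) (h : (ι → Bool) → ℝ)
    (hh : ∀ x, h x = 0 ∨ h x = 1 ∨ h x = -1) {s : ℝ} (hs : 0 < s) :
    ∑ T ∈ Fintype.piFinset V, E q (fun x => |PT q B k L T h x| * |PT q B k L T f x|)
      ≤ s * E q (fun x => h x ^ 2) + 67 ^ k * E q f / s ^ 3 := by
  set σ : (Fin k → β) → (ι → Bool) → ℝ := fun T x =>
    if 0 ≤ PT q B k L T h x then |PT q B k L T f x| else -|PT q B k L T f x| with hσ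
  have e1 : ∀ T, E q (fun x => |PT q B k L T h x| * |PT q B k L T f x|)
      = E q (fun x => h x * PT q B k L T (σ T) x) := fun T => by
    rw [← PT_adj]
    refine E_congr q fun x => ?_
    simp only [hσ]
    split_ifs with h1
    · rw [abs_of_nonneg h1]
    · rw [abs_of_neg (not_le.mp h1)]; ring
  simp only [e1]
  rw [← E_sum]
  have key := fourth q B k L V hL Unit (fun _ => 1) (fun _ => zero_le_one) (fun _ => f)
    (fun T _ => σ T) 1 (fun x => by rcases hf x with h | h <;> simp [h])
    (fun T _ _ x => by simp only [hσ]; split_ifs <;> simp)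
  simp only [Finset.univ_unique, Finset.sum_singleton, one_mul, mul_one] at key
  have ef : E q (fun x => f x ^ 2) = E q f := E_congr q fun x => by
    rcases hf x with h | h <;> simp [h]
  rw [ef] at key
  have h2 := E_mono q fun x => young4 hs (h x)
    (∑ T ∈ Fintype.piFinset V, PT q B k L T (σ T) x) (hh x)
  simp only [Finset.mul_sum, div_eq_mul_inv] at h2
  rw [E_add, E_mul_left, E_mul_right] at h2
  refine h2.trans ?_
  rw [div_eq_mul_inv]
  have := mul_le_mul_of_nonneg_right key (by positivity : (0 : ℝ) ≤ (s ^ 3)⁻¹)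
  linarith

/-- the recursion for the clipped mass -/
theorem mass_le (f : (ι → Bool) → ℝ) (hf : ∀ x, f x = 0 ∨ f x = 1) {θ ρ s J : ℝ} (hθ : 0 < θ)
    (hρ : 0 < ρ) (hs : 0 < s) (hJ0 : 0 ≤ J) (N t : ℕ) (hst : (N : ℝ) * 67 ^ t ≤ s ^ 4) :
    ∀ (k : ℕ), k ≤ t → ∀ (L : Fin k → Finset ι) (V : Fin k → Finset β), Lay B L V →
    (∀ j, (V j).card ≤ N) → (∀ j, ∑ v ∈ V j, binf q (B v) f ≤ J) →
    ∑ T ∈ Fintype.piFinset V, E q (fun x => clip (θ * ρ ^ k) (PT q B k L T f x) ^ 2)
      ≤ 2 ^ k * (θ ^ 2 * E q f + 4 * ρ * s * (J + E q f)) - 4 * ρ * s * (J + E q f)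
  | 0, _, L, V, hL, hN, hJ => by
    rw [sum_tup_zero]
    simp only [pow_zero, mul_one, one_mul, add_sub_cancel_right]
    rw [← E_mul_left]
    refine E_mono q fun x => ?_
    have := clip_sq_le hθ.le (f x)
    change clip θ (f x) ^ 2 ≤ _
    rcases hf x with h | h <;> rw [h] at this ⊢ <;> nlinarith [this.1, this.2]
  | k + 1, hk, L, V, hL, hN, hJ => by
    have ih := mass_le f hf hθ hρ hs hJ0 N t hst k (by omega) (Fin.tail L) (Fin.tail V) hL.tail
      (fun j => hN j.succ) (fun j => hJ j.succ)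
    have hμ : 0 ≤ E q f := E_nonneg q fun x => by rcases hf x with h | h <;> simp [h]
    set θ₁ := θ * ρ ^ k with hθ₁
    have hθ₁0 : 0 < θ₁ := by positivity
    have hθ' : θ * ρ ^ (k + 1) = θ₁ * ρ := by rw [hθ₁]; ring
    rw [hθ', sum_tup]
    simp only [PT_cons]
    set F : (Fin k → β) → (ι → Bool) → ℝ := fun T => PT q B k (Fin.tail L) T f with hF
    have step : ∀ v ∈ V 0, ∀ T, E q (fun x => clip (θ₁ * ρ) (P q (L 0) (B v) (F T) x) ^ 2) ≤
        4 * ρ * E q (fun ω => E q (fun x => |F T x - F T ((B v).piecewise ω x)| * |F T x|))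
        + 2 * E q (fun x => P q (L 0) (B v) (fun x => clip θ₁ (F T x)) x ^ 2) := by
      intro v hv T
      have e : F T = fun x => (F T x - clip θ₁ (F T x)) + clip θ₁ (F T x) := by
        funext x; ring
      have h1 : E q (fun x => clip (θ₁ * ρ) (P q (L 0) (B v) (F T) x) ^ 2) ≤
          E q (fun x => 2 * (θ₁ * ρ) * |P q (L 0) (B v) (fun x => F T x - clip θ₁ (F T x)) x|
            + 2 * P q (L 0) (B v) (fun x => clip θ₁ (F T x)) x ^ 2) := by
        refine E_mono q fun x => ?_
        conv_lhs => rw [e, P_add]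
        exact clip_add_sq (by positivity) _ _
      rw [E_add, E_mul_left, E_mul_left] at h1
      have h2 := E_abs_P q (hL.sub 0 v hv) (fun x => F T x - clip θ₁ (F T x))
      have h3 : θ₁ * E q (fun x => E q (fun ω => |(F T x - clip θ₁ (F T x)) -
            (F T ((B v).piecewise ω x) - clip θ₁ (F T ((B v).piecewise ω x)))|)) ≤
          E q (fun x => E q (fun ω => |F T x - F T ((B v).piecewise ω x)| * |F T x|)) +
          E q (fun x => E q (fun ω => |F T x - F T ((B v).piecewise ω x)|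
            * |F T ((B v).piecewise ω x)|)) := by
        rw [← E_mul_left, ← E_add]
        refine E_mono q fun x => ?_
        rw [← E_mul_left, ← E_add]
        exact E_mono q fun ω => soft_diff hθ₁0 _ _
      have h4 : E q (fun x => E q (fun ω => |F T x - F T ((B v).piecewise ω x)|
            * |F T ((B v).piecewise ω x)|)) =
          E q (fun x => E q (fun ω => |F T x - F T ((B v).piecewise ω x)| * |F T x|)) := by
        rw [← EE_swap q (B v) (fun x ω => |F T x - F T ((B v).piecewise ω x)| * |F T x|)]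
        refine E_congr q fun x => E_congr q fun ω => ?_
        rw [pw_pw_swap, abs_sub_comm]
      rw [h4, E_comm q (fun x ω => |F T x - F T ((B v).piecewise ω x)| * |F T x|)] at h3
      have h5 := mul_le_mul_of_nonneg_left h2 (by positivity : 0 ≤ 2 * (θ₁ * ρ))
      have h6 := mul_le_mul_of_nonneg_left h3 (by positivity : 0 ≤ 2 * ρ)
      nlinarith
    have corr : ∀ v ∈ V 0, ∑ T ∈ Fintype.piFinset (Fin.tail V),
        E q (fun ω => E q (fun x => |F T x - F T ((B v).piecewise ω x)| * |F T x|)) ≤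
        s * binf q (B v) f + 67 ^ k * E q f / s ^ 3 := by
      intro v hv
      rw [← E_sum]
      unfold binf
      rw [← E_mul_left, ← E_const q (ι := ι) (67 ^ k * E q f / s ^ 3), ← E_add]
      refine E_mono q fun ω => ?_
      have := corr_le q B k (Fin.tail L) (Fin.tail V) hL.tail f hf
        (fun x => f x - f ((B v).piecewise ω x)) (fun x => by
          rcases hf x with h | h <;> rcases hf ((B v).piecewise ω x) with h' | h' <;>
            simp [h, h']) hs
      refine le_trans (le_of_eq (Finset.sum_congr rfl fun T _ => ?_)) this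
      rw [PT_sub, PT_subst q B ω k _ T f
        (fun j => Finset.disjoint_of_subset_right (hL.sub 0 v hv) (hL.tail_disj B j))]
    have bes : ∑ v ∈ V 0, ∑ T ∈ Fintype.piFinset (Fin.tail V),
        E q (fun x => P q (L 0) (B v) (fun x => clip θ₁ (F T x)) x ^ 2) ≤
        ∑ T ∈ Fintype.piFinset (Fin.tail V), E q (fun x => clip θ₁ (F T x) ^ 2) := by
      rw [Finset.sum_comm]
      exact Finset.sum_le_sum fun T _ => bessel_E q (V 0) (hL.sub 0) (hL.disj 0) _
    have tot : ∑ v ∈ V 0, (s * binf q (B v) f + 67 ^ k * E q f / s ^ 3) ≤ s * (J + E q f) := by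
      rw [Finset.sum_add_distrib, ← Finset.mul_sum, Finset.sum_const, nsmul_eq_mul]
      have a1 := mul_le_mul_of_nonneg_left (hJ 0) hs.le
      have a2 : ((V 0).card : ℝ) * 67 ^ k ≤ s ^ 4 := by
        refine le_trans ?_ hst
        exact mul_le_mul (by exact_mod_cast hN 0) (pow_le_pow_right₀ (by norm_num) (by omega))
          (by positivity) (by positivity)
      have a3 : ((V 0).card : ℝ) * (67 ^ k * E q f / s ^ 3) ≤ s * E q f := by
        rw [← mul_div_assoc, div_le_iff₀ (by positivity)]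
        nlinarith
      linarith
    have all := Finset.sum_le_sum fun v (hv : v ∈ V 0) =>
      Finset.sum_le_sum fun T (_ : T ∈ Fintype.piFinset (Fin.tail V)) => step v hv T
    refine all.trans ?_
    simp only [Finset.sum_add_distrib, ← Finset.mul_sum]
    have c2 := (Finset.sum_le_sum corr).trans tot
    have c3 := mul_le_mul_of_nonneg_left c2 (by positivity : 0 ≤ 4 * ρ)
    rw [pow_succ]
    nlinarith

end Crest.Agent.FK
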