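import Crest.Agent.FK.Fourier

/-! The spectral weight of a symmetric Boolean function on hypergraphs with a given number of
vertices and few edges. -/

set_option autoImplicit false
set_option linter.unusedSectionVars false
set_option linter.unusedVariables false
set_option linter.unusedSimpArgs false
set_option linter.unnecessarySeqFocus false

namespace Crest.Agent.FK
open Finset

variable {ι : Type} [Fintype ι] [DecidableEq ι] (q : Pr)

lemma final_pt {θ δ : ℝ} (hθ : 0 < θ) (hδ : 0 < δ) (F G : ℝ) :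
    F * G ≤ clip θ F ^ 2 + G ^ 2 / 4 + δ * F ^ 2 + (G ^ 2) ^ 2 / (δ ^ 3 * θ ^ 2) := by
  have h1 : clip θ F * G ≤ clip θ F ^ 2 + G ^ 2 / 4 := by nlinarith [sq_nonneg (clip θ F - G / 2)]
  have h0 : 0 ≤ (G ^ 2) ^ 2 / (δ ^ 3 * θ ^ 2) := by positivity
  have h00 : 0 ≤ δ * F ^ 2 := by positivity
  have h2 : (F - clip θ F) * G ≤ δ * F ^ 2 + (G ^ 2) ^ 2 / (δ ^ 3 * θ ^ 2) := by
    by_cases h : |F| ≤ θ
    · rw [clip_of_abs_le h]; simp; positivity
    · push Not at h
      have a1 : (F - clip θ F) * G ≤ |F| * |G| := by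
        refine (le_abs_self _).trans ?_
        rw [abs_mul]
        exact mul_le_mul_of_nonneg_right (soft_abs_le hθ.le F) (abs_nonneg _)
      have hF := abs_nonneg F
      have hG := abs_nonneg G
      rw [← sq_abs F, ← sq_abs G]
      rw [← sq_abs F] at h00
      rw [← sq_abs G] at h0
      rcases le_total |G| (δ * |F|) with h3 | h3
      · nlinarith
      · have a2 : |F| * |G| ≤ (|G| ^ 2) ^ 2 / (δ ^ 3 * θ ^ 2) := by
          rw [le_div_iff₀ (by positivity)]
          have a3 : δ * θ ≤ |G| := le_trans (mul_le_mul_of_nonneg_left h.le hδ.le) h3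
          have a4 : (δ * θ) ^ 2 ≤ |G| ^ 2 := pow_le_pow_left₀ (by positivity) a3 2
          have a5 : δ * |F| * |G| ≤ |G| ^ 2 := by nlinarith
          calc |F| * |G| * (δ ^ 3 * θ ^ 2) = (δ * |F| * |G|) * (δ * θ) ^ 2 := by ring
            _ ≤ |G| ^ 2 * |G| ^ 2 := mul_le_mul a5 a4 (by positivity) (by positivity)
            _ = _ := by ring
        linarith
  nlinarith

section abstract
variable {β : Type} [Fintype β] [DecidableEq β] (B : β → Finset ι)

theorem good_mass_le (f : (ι → Bool) → ℝ) (hf : ∀ x, f x = 0 ∨ f x = 1) {t : ℕ}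
    (L : Fin t → Finset ι) (V : Fin t → Finset β) (hL : Lay B L V) (N : ℕ)
    (hN : ∀ j, (V j).card ≤ N) (C : Finset (Finset ι)) (D : ℕ) (hD : ∀ S ∈ C, S.card ≤ D)
    (m : ℝ) (hm : ∀ T ∈ Fintype.piFinset V, ∑ S ∈ C.filter (Good B L T), co q f S ^ 2 ≤ m)
    {θ ρ s : ℝ} (hθ : 0 < θ) (hρ : 0 < ρ) (hs : 0 < s) (hst : (N : ℝ) * 67 ^ t ≤ s ^ 4)
    (hcond : 4 * (4 / lam q) ^ D * m ≤ θ ^ 8 * ρ ^ (2 * t)) :
    ∑ T ∈ Fintype.piFinset V, ∑ S ∈ C.filter (Good B L T), co q f S ^ 2 ≤
      2 * (2 ^ t * (θ ^ 2 * E q f + 4 * ρ * s * (2 * tinf q f + E q f)) + θ ^ 2 * E q f) := by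
  have hμ : 0 ≤ E q f := E_nonneg q fun x => by rcases hf x with h | h <;> simp [h]
  have hI := tinf_nonneg q f
  have mass := mass_le q B f hf hθ hρ hs (J := 2 * tinf q f) (by linarith) N t hst t le_rfl L V hL
    hN (fun j => sum_binf_le q B (V j) (hL.disj j) f)
  have ef : E q (fun x => f x ^ 2) = E q f := E_congr q fun x => by
    rcases hf x with h | h <;> simp [h]
  have bes := bessel_PT q B t L V hL f
  rw [ef] at bes
  set θ₁ := θ * ρ ^ t with hθ₁
  have hθ₁0 : 0 < θ₁ := by positivity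
  set g : (Fin t → β) → ℝ := fun T => ∑ S ∈ C.filter (Good B L T), co q f S ^ 2 with hg
  have one : ∀ T ∈ Fintype.piFinset V, g T ≤
      2 * (E q (fun x => clip θ₁ (PT q B t L T f x) ^ 2)
        + θ ^ 2 * E q (fun x => PT q B t L T f x ^ 2)) := by
    intro T hT
    set G : (ι → Bool) → ℝ := fun x => ∑ S ∈ C.filter (Good B L T), co q f S * chi q S x with hG
    have e1 : E q (fun x => PT q B t L T f x * G x) = g T := by
      simp only [PT_expand, hG]
      rw [E_sum_mul]
      refine Finset.sum_congr rfl fun S hS => ?_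
      rw [if_pos (Finset.mem_filter.mp hS).2, sq]
    have e2 : E q (fun x => G x ^ 2) = g T := E_sum_sq q _ _
    have e3 : E q (fun x => (G x ^ 2) ^ 2) ≤ (4 / lam q) ^ D * g T ^ 2 :=
      bonami q _ D (fun S hS => hD S (Finset.mem_filter.mp hS).1) _
    have h1 := E_mono q fun x => final_pt hθ₁0 (δ := θ ^ 2) (by positivity) (PT q B t L T f x) (G x)
    simp only [div_eq_mul_inv] at h1
    rw [E_add, E_add, E_add, E_mul_right, E_mul_right, E_mul_left, e1, e2] at h1
    have g0 : 0 ≤ g T := Finset.sum_nonneg fun S _ => sq_nonneg _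
    have h2 : E q (fun x => (G x ^ 2) ^ 2) * ((θ ^ 2) ^ 3 * θ₁ ^ 2)⁻¹ ≤ g T / 4 := by
      rw [← div_eq_mul_inv, div_le_iff₀ (by positivity)]
      have a1 : (θ ^ 2) ^ 3 * θ₁ ^ 2 = θ ^ 8 * ρ ^ (2 * t) := by rw [hθ₁]; ring
      rw [a1]
      have a2 : (0 : ℝ) ≤ (4 / lam q) ^ D := by have := lam_pos q; positivity
      have a3 := mul_le_mul_of_nonneg_left (hm T hT) a2
      have a4 := mul_le_mul_of_nonneg_left hcond g0
      change (4 / lam q) ^ D * g T ≤ _ at a3
      nlinarith
    linarith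
  refine (Finset.sum_le_sum one).trans ?_
  rw [← Finset.mul_sum, Finset.sum_add_distrib, ← Finset.mul_sum]
  have h3 := mul_le_mul_of_nonneg_left bes (sq_nonneg θ)
  have h4 : 0 ≤ 4 * ρ * s * (2 * tinf q f + E q f) := by positivity
  linarith
end abstract

/-- coordinates indexed by `r`-sets of vertices, with the action of vertex permutations -/
structure HG (ι : Type) (n r : ℕ) where
  vs : ι → Finset (Fin n)
  act : Equiv.Perm (Fin n) → ι ≃ ι
  card_vs : ∀ e, (vs e).card = r
  inj : Function.Injective vs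
  vs_act : ∀ σ e, vs (act σ e) = (vs e).map σ.toEmbedding

variable {n r : ℕ} (G : HG ι n r)

/-- vertex set of a set of hyperedges -/
def HG.VS (S : Finset ι) : Finset (Fin n) := S.biUnion G.vs

/-- invariance under relabelling -/
def HG.Symm (f : (ι → Bool) → ℝ) : Prop := ∀ σ x, f (fun e => x (G.act σ e)) = f x

lemma E_relabel (τ : ι ≃ ι) (g : (ι → Bool) → ℝ) : E q (fun x => g (fun e => x (τ e))) = E q g := by
  unfold E
  refine Fintype.sum_equiv (Equiv.arrowCongr τ.symm (Equiv.refl Bool)) _ _ fun x => ?_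
  have : (Equiv.arrowCongr τ.symm (Equiv.refl Bool)) x = fun e => x (τ e) := by
    funext e; simp [Equiv.arrowCongr]
  rw [this]
  congr 1
  unfold wt
  exact (Equiv.prod_comp τ (fun i => pr q (x i))).symm

lemma co_map {f : (ι → Bool) → ℝ} (hf : G.Symm f) (σ : Equiv.Perm (Fin n)) (S : Finset ι) :
    co q f (S.map (G.act σ).toEmbedding) = co q f S := by
  unfold co
  rw [← E_relabel q (G.act σ) (fun x => f x * chi q S x)]
  refine E_congr q fun x => ?_
  rw [hf σ x]
  unfold chi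
  rw [Finset.prod_map]; rfl

lemma VS_map (σ : Equiv.Perm (Fin n)) (S : Finset ι) :
    G.VS (S.map (G.act σ).toEmbedding) = (G.VS S).map σ.toEmbedding := by
  ext v
  simp only [HG.VS, Finset.mem_biUnion, Finset.mem_map, Equiv.coe_toEmbedding]
  constructor
  · rintro ⟨e, ⟨e', he', rfl⟩, hv⟩
    rw [G.vs_act, Finset.mem_map] at hv
    obtain ⟨u, hu, rfl⟩ := hv
    exact ⟨u, ⟨e', he', hu⟩, rfl⟩
  · rintro ⟨u, ⟨e, he, hu⟩, rfl⟩
    refine ⟨_, ⟨e, he, rfl⟩, ?_⟩
    rw [G.vs_act]; exact Finset.mem_map_of_mem _ hu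

/-- the hypergraphs with `w` vertices and at most `D` edges -/
def HG.cls (w D : ℕ) : Finset (Finset ι) :=
  univ.filter (fun S => (G.VS S).card = w ∧ S.card ≤ D)

lemma desc_ratio {w : ℕ} (hw : w ≤ n) : ∀ t : ℕ,
    w.descFactorial t * n ^ t ≤ n.descFactorial t * w ^ t
  | 0 => by simp
  | t + 1 => by
    rw [Nat.descFactorial_succ, Nat.descFactorial_succ, pow_succ, pow_succ]
    have h1 := desc_ratio hw t
    have h2 : (w - t) * n ≤ (n - t) * w := by
      rw [Nat.sub_mul, Nat.sub_mul, mul_comm n w]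
      exact Nat.sub_le_sub_left (Nat.mul_le_mul_left _ hw) _
    calc (w - t) * w.descFactorial t * (n ^ t * n)
        = ((w - t) * n) * (w.descFactorial t * n ^ t) := by ring
      _ ≤ ((n - t) * w) * (n.descFactorial t * w ^ t) := Nat.mul_le_mul h2 h1
      _ = _ := by ring

lemma sym_bound {f : (ι → Bool) → ℝ} (hf : G.Symm f) (w D : ℕ) (hw : w ≤ n) (hn : 0 < n)
    (A : Finset (Fin n)) :
    ∑ S ∈ (G.cls w D).filter (fun S => A ⊆ G.VS S), co q f S ^ 2 ≤
      ((w : ℝ) / n) ^ A.card * ∑ S ∈ G.cls w D, co q f S ^ 2 := by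
  set t := A.card with ht
  set M : Finset (Fin n) → ℝ := fun A =>
    ∑ S ∈ (G.cls w D).filter (fun S => A ⊆ G.VS S), co q f S ^ 2 with hM
  have eqM : ∀ A' ∈ (univ : Finset (Fin n)).powersetCard t, M A' = M A := by
    intro A' hA'
    obtain ⟨σ, hσ⟩ := Equiv.Perm.exists_map_finset_eq A A'
      (by rw [(Finset.mem_powersetCard.mp hA').2])
    symm
    refine Finset.sum_bij (fun S _ => S.map (G.act σ).toEmbedding) ?_ ?_ ?_ ?_
    · intro S hS
      simp only [HG.cls, Finset.mem_filter, Finset.mem_univ, true_and] at hS ⊢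
      rw [VS_map, Finset.card_map, Finset.card_map, ← hσ, Finset.map_subset_map]
      exact hS
    · intro S _ S' _ h; exact Finset.map_injective _ h
    · intro S hS
      refine ⟨S.map (G.act σ).symm.toEmbedding, ?_, by ext; simp⟩
      have e : S = (S.map (G.act σ).symm.toEmbedding).map (G.act σ).toEmbedding := by ext; simp
      simp only [HG.cls, Finset.mem_filter, Finset.mem_univ, true_and] at hS ⊢
      rw [e, VS_map, Finset.card_map, Finset.card_map, ← hσ, Finset.map_subset_map] at hS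
      exact hS
    · intro S _; rw [co_map q G hf]
  have tot : ∑ A' ∈ (univ : Finset (Fin n)).powersetCard t, M A' =
      (w.choose t : ℝ) * ∑ S ∈ G.cls w D, co q f S ^ 2 := by
    simp only [hM, Finset.sum_filter]
    rw [Finset.sum_comm, Finset.mul_sum]
    refine Finset.sum_congr rfl fun S hS => ?_
    rw [← Finset.sum_filter, Finset.sum_const, nsmul_eq_mul]
    congr 2
    have : filter (fun A' => A' ⊆ G.VS S) ((univ : Finset (Fin n)).powersetCard t)
        = (G.VS S).powersetCard t := by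
      ext A'; simp [Finset.mem_powersetCard, and_comm]
    rw [this, Finset.card_powersetCard, (Finset.mem_filter.mp hS).2.1]
  rw [Finset.sum_congr rfl eqM, Finset.sum_const, Finset.card_powersetCard, Finset.card_univ,
    Fintype.card_fin, nsmul_eq_mul] at tot
  have htn : t ≤ n := by simpa using Finset.card_le_univ A
  have c0 : (0 : ℝ) < n.choose t := by exact_mod_cast Nat.choose_pos htn
  have W0 : 0 ≤ ∑ S ∈ G.cls w D, co q f S ^ 2 := Finset.sum_nonneg fun S _ => sq_nonneg _
  have r1 : (w.choose t : ℝ) * n ^ t ≤ n.choose t * w ^ t := by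
    have h := desc_ratio hw t
    rw [Nat.descFactorial_eq_factorial_mul_choose, Nat.descFactorial_eq_factorial_mul_choose,
      mul_assoc, mul_assoc] at h
    exact_mod_cast Nat.le_of_mul_le_mul_left h (Nat.factorial_pos t)
  have hn' : (0 : ℝ) < (n : ℝ) ^ t := by positivity
  change M A ≤ _
  rw [div_pow, div_mul_eq_mul_div, le_div_iff₀ hn']
  have r2 := mul_le_mul_of_nonneg_right r1 W0
  refine le_of_mul_le_mul_left ?_ c0
  calc (n.choose t : ℝ) * (M A * n ^ t) = (n.choose t * M A) * n ^ t := by ring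
    _ = _ := by rw [tot]
    _ ≤ _ := by linarith

/-- a large set of vertices with private edges -/
lemma exists_private (S : Finset ι) : ∃ U ⊆ G.VS S, (G.VS S).card ≤ r * U.card ∧
    ∀ u ∈ U, ∃ e ∈ S, u ∈ G.vs e ∧ ∀ u' ∈ U, u' ∈ G.vs e → u' = u := by
  obtain ⟨S', hS', hmin⟩ := Finset.exists_min_image
    (S.powerset.filter (fun S' => G.VS S' = G.VS S)) Finset.card ⟨S, by simp⟩
  obtain ⟨h1, h2⟩ := Finset.mem_filter.mp hS'
  have h1' := Finset.mem_powerset.mp h1
  have priv : ∀ e ∈ S', ∃ u ∈ G.vs e, ∀ e' ∈ S', u ∈ G.vs e' → e' = e := by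
    intro e he
    by_contra hc
    push Not at hc
    have : G.VS (S'.erase e) = G.VS S := by
      rw [← h2]
      refine Finset.Subset.antisymm
        (Finset.biUnion_subset_biUnion_of_subset_left _ (Finset.erase_subset _ _)) ?_
      intro u hu
      obtain ⟨e', he', hu'⟩ := Finset.mem_biUnion.mp hu
      by_cases h : e' = e
      · subst h
        obtain ⟨e'', h3, h4, h5⟩ := hc u hu'
        exact Finset.mem_biUnion.mpr ⟨e'', Finset.mem_erase.mpr ⟨h5, h3⟩, h4⟩
      · exact Finset.mem_biUnion.mpr ⟨e', Finset.mem_erase.mpr ⟨h, he'⟩, hu'⟩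
    have h3 := hmin (S'.erase e) (Finset.mem_filter.mpr
      ⟨Finset.mem_powerset.mpr ((Finset.erase_subset _ _).trans h1'), this⟩)
    have h4 := Finset.card_erase_lt_of_mem he
    omega
  choose u hu1 hu2 using priv
  refine ⟨S'.attach.image (fun e => u e.1 e.2), ?_, ?_, ?_⟩
  · intro v hv
    obtain ⟨e, _, rfl⟩ := Finset.mem_image.mp hv
    exact Finset.mem_biUnion.mpr ⟨e.1, h1' e.2, hu1 _ _⟩
  · rw [Finset.card_image_of_injective, Finset.card_attach, ← h2]
    · refine Finset.card_biUnion_le.trans ?_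
      simp [G.card_vs, mul_comm]
    · intro e e' h
      have := hu2 e.1 e.2 e'.1 e'.2 (by simp only [] at h; rw [h]; exact hu1 _ _)
      exact Subtype.ext this.symm
  · intro v hv
    obtain ⟨e, _, rfl⟩ := Finset.mem_image.mp hv
    refine ⟨e.1, h1' e.2, hu1 _ _, fun u' hu' h => ?_⟩
    obtain ⟨e', _, rfl⟩ := Finset.mem_image.mp hu'
    have := hu2 e'.1 e'.2 e.1 e.2 h
    obtain ⟨e, he⟩ := e
    obtain ⟨e', he'⟩ := e'
    simp only at this; subst this; rfl

section colour
variable {t w : ℕ} (a : Fin n → Fin t ⊕ Fin w)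

/-- the layers of a colouring -/
def cV (j : Fin t) : Finset (Fin n) := univ.filter (fun v => a v = Sum.inl j)
/-- the blocks of a colouring -/
def HG.cB (v : Fin n) : Finset ι :=
  univ.filter (fun e => v ∈ G.vs e ∧ ∀ u ∈ G.vs e, u ≠ v → (a u).isRight = true)
/-- the union of the blocks of a layer -/
def HG.cL (j : Fin t) : Finset ι := (cV a j).biUnion (G.cB a)

lemma cB_disj {u v : Fin n} {i : Fin t} (hu : a u = Sum.inl i) (huv : u ≠ v) :
    Disjoint (G.cB a u) (G.cB a v) := by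
  rw [Finset.disjoint_left]
  intro e h1 h2
  simp only [HG.cB, Finset.mem_filter, Finset.mem_univ, true_and] at h1 h2
  have := h2.2 u h1.1 huv
  rw [hu] at this; simp at this

lemma cLay : Lay (G.cB a) (G.cL a) (cV a) := by
  refine ⟨fun j v hv => Finset.subset_biUnion_of_mem _ hv, fun j u hu v hv huv =>
    cB_disj G a (Finset.mem_filter.mp hu).2 huv, fun i j hij => ?_⟩
  unfold HG.cL
  rw [Finset.disjoint_biUnion_left]
  intro u hu
  rw [Finset.disjoint_biUnion_right]
  intro v hv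
  refine cB_disj G a (Finset.mem_filter.mp hu).2 fun h => hij ?_
  have h1 := (Finset.mem_filter.mp hu).2
  have h2 := (Finset.mem_filter.mp hv).2
  rw [h, h2] at h1
  exact (Sum.inl_injective h1).symm

lemma good_subset {T : Fin t → Fin n} {S : Finset ι} (h : Good (G.cB a) (G.cL a) T S) :
    univ.image T ⊆ G.VS S := by
  intro v hv
  obtain ⟨j, _, rfl⟩ := Finset.mem_image.mp hv
  obtain ⟨e, h1, h2⟩ := Finset.not_disjoint_iff.mp (h j).2
  have h3 : e ∈ G.cB a (T j) := by
    by_contra hc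
    exact Finset.disjoint_left.mp (h j).1 h1 (Finset.mem_sdiff.mpr ⟨h2, hc⟩)
  exact Finset.mem_biUnion.mpr ⟨e, h1, (Finset.mem_filter.mp h3).2.1⟩

lemma tup_inj {T : Fin t → Fin n} (hT : T ∈ Fintype.piFinset (cV a)) : Function.Injective T := by
  intro i j h
  have h1 := (Finset.mem_filter.mp (Fintype.mem_piFinset.mp hT i)).2
  have h2 := (Finset.mem_filter.mp (Fintype.mem_piFinset.mp hT j)).2
  rw [h, h2] at h1
  exact (Sum.inl_injective h1).symm
end colour

lemma count_col {t w : ℕ} (W : Finset (Fin n)) (hW : W.card = w) (T : Fin t → Fin n)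
    (hT : Function.Injective T) (hTW : ∀ j, T j ∈ W) :
    w ^ (w - t) * (t + w) ^ (n - w) ≤ (univ.filter (fun a : Fin n → Fin t ⊕ Fin w =>
      (∀ j, a (T j) = Sum.inl j) ∧ ∀ v ∈ W, (∀ j, T j ≠ v) → (a v).isRight = true)).card := by
  classical
  set A := univ.image T with hA
  have hAW : A ⊆ W := fun v hv => by
    obtain ⟨j, _, rfl⟩ := Finset.mem_image.mp hv; exact hTW j
  have hAc : A.card = t := by rw [hA, Finset.card_image_of_injective _ hT]; simp
  set Z : Fin n → Finset (Fin t ⊕ Fin w) := fun v =>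
    if h : ∃ j, T j = v then {Sum.inl h.choose} else
      if v ∈ W then univ.map ⟨Sum.inr, Sum.inr_injective⟩ else univ with hZ
  have sub : Fintype.piFinset Z ⊆ univ.filter (fun a : Fin n → Fin t ⊕ Fin w =>
      (∀ j, a (T j) = Sum.inl j) ∧ ∀ v ∈ W, (∀ j, T j ≠ v) → (a v).isRight = true) := by
    intro a ha
    rw [Fintype.mem_piFinset] at ha
    refine Finset.mem_filter.mpr ⟨Finset.mem_univ _, fun j => ?_, fun v hv hn => ?_⟩
    · have h := ha (T j)
      have hex : ∃ i, T i = T j := ⟨j, rfl⟩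
      simp only [hZ, dif_pos hex, Finset.mem_singleton] at h
      rw [h, hT hex.choose_spec]
    · have h := ha v
      have hex : ¬ ∃ i, T i = v := fun ⟨i, hi⟩ => hn i hi
      simp only [hZ, dif_neg hex, if_pos hv, Finset.mem_map] at h
      obtain ⟨c, _, hc⟩ := h
      rw [← hc]; rfl
  refine le_trans (le_of_eq ?_) (Finset.card_le_card sub)
  rw [Fintype.card_piFinset, ← Finset.prod_mul_prod_compl W, ← Finset.prod_sdiff hAW]
  have p1 : ∏ v ∈ A, (Z v).card = 1 := Finset.prod_eq_one fun v hv => by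
    obtain ⟨j, _, hj⟩ := Finset.mem_image.mp hv
    have hex : ∃ i, T i = v := ⟨j, hj⟩
    simp only [hZ, dif_pos hex, Finset.card_singleton]
  have p2 : ∏ v ∈ W \ A, (Z v).card = w ^ (w - t) := by
    rw [Finset.prod_congr rfl (g := fun _ => w), Finset.prod_const, Finset.card_sdiff_of_subset hAW,
      hW, hAc]
    intro v hv
    obtain ⟨h1, h2⟩ := Finset.mem_sdiff.mp hv
    have hex : ¬ ∃ i, T i = v := fun ⟨i, hi⟩ =>
      h2 (Finset.mem_image.mpr ⟨i, Finset.mem_univ _, hi⟩)
    simp [hZ, dif_neg hex, if_pos h1]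
  have p3 : ∏ v ∈ Wᶜ, (Z v).card = (t + w) ^ (n - w) := by
    rw [Finset.prod_congr rfl (g := fun _ => t + w), Finset.prod_const, Finset.card_compl, hW,
      Fintype.card_fin]
    intro v hv
    have h1 := Finset.mem_compl.mp hv
    have hex : ¬ ∃ i, T i = v := fun ⟨i, hi⟩ => h1 (hi ▸ hTW i)
    simp [hZ, dif_neg hex, if_neg h1]
  rw [p1, p2, p3, mul_one]

lemma count_good {t w : ℕ} (S : Finset ι) (hS : (G.VS S).card = w) (hr : 0 < r)
    (ht : 2 * r * (t - 1) ≤ w) (ht1 : 1 ≤ t) :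
    ((w : ℝ) / (2 * r)) ^ t * (w ^ (w - t) * (t + w) ^ (n - w)) ≤
      ∑ a : Fin n → Fin t ⊕ Fin w, ∑ T ∈ Fintype.piFinset (cV a),
        (if Good (G.cB a) (G.cL a) T S then (1 : ℝ) else 0) := by
  classical
  obtain ⟨U, hU, hUc, hpriv⟩ := exists_private G S
  have e1 : ∀ a : Fin n → Fin t ⊕ Fin w, ∑ T ∈ Fintype.piFinset (cV a),
      (if Good (G.cB a) (G.cL a) T S then (1 : ℝ) else 0) =
      ∑ T : Fin t → Fin n, if T ∈ Fintype.piFinset (cV a) ∧ Good (G.cB a) (G.cL a) T S
        then (1 : ℝ) else 0 := fun a => by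
    simp only [ite_and]
    rw [Finset.sum_ite_mem, Finset.univ_inter]
  simp only [e1]
  rw [Finset.sum_comm]
  set φ : (Fin t ↪ U) → (Fin t → Fin n) := fun e j => (e j).1 with hφ
  have φinj : Function.Injective φ := fun e e' h => by
    ext j; exact congrArg Fin.val (congrFun h j)
  refine le_trans ?_ (Finset.sum_le_sum_of_subset_of_nonneg (Finset.subset_univ (univ.image φ))
    fun T _ _ => Finset.sum_nonneg fun a _ => by split_ifs <;> norm_num)
  rw [Finset.sum_image fun e _ e' _ h => φinj h]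
  have one : ∀ e : Fin t ↪ U, ((w : ℝ) ^ (w - t) * (t + w) ^ (n - w)) ≤
      ∑ a : Fin n → Fin t ⊕ Fin w, if φ e ∈ Fintype.piFinset (cV a) ∧
        Good (G.cB a) (G.cL a) (φ e) S then (1 : ℝ) else 0 := by
    intro e
    have hT : Function.Injective (φ e) := fun i j h => e.injective (Subtype.ext h)
    have h := count_col (G.VS S) hS (φ e) hT (fun j => hU (e j).2)
    rw [Finset.sum_boole]
    refine le_trans (by exact_mod_cast h) (Nat.cast_le.mpr (Finset.card_le_card ?_))
    intro a ha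
    obtain ⟨h1, h2⟩ := (Finset.mem_filter.mp ha).2
    refine Finset.mem_filter.mpr ⟨Finset.mem_univ _, Fintype.mem_piFinset.mpr fun j =>
      Finset.mem_filter.mpr ⟨Finset.mem_univ _, h1 j⟩, fun j => ⟨?_, ?_⟩⟩
    · rw [Finset.disjoint_left]
      intro x hx hx'
      obtain ⟨h3, h4⟩ := Finset.mem_sdiff.mp hx'
      obtain ⟨u, hu, hxu⟩ := Finset.mem_biUnion.mp h3
      have hu' := (Finset.mem_filter.mp hu).2
      have huW : u ∈ G.VS S := Finset.mem_biUnion.mpr ⟨x, hx, (Finset.mem_filter.mp hxu).2.1⟩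
      by_cases hex : ∃ i, φ e i = u
      · obtain ⟨i, rfl⟩ := hex
        rw [h1 i] at hu'
        rw [Sum.inl_injective hu'] at hxu
        exact h4 hxu
      · have := h2 u huW fun i hi => hex ⟨i, hi⟩
        rw [hu'] at this; simp at this
    · obtain ⟨x, hx, h3, h4⟩ := hpriv (φ e j) (e j).2
      refine Finset.not_disjoint_iff.mpr ⟨x, hx, Finset.mem_biUnion.mpr ⟨φ e j,
        Finset.mem_filter.mpr ⟨Finset.mem_univ _, h1 j⟩,
        Finset.mem_filter.mpr ⟨Finset.mem_univ _, h3, fun u hu hne => ?_⟩⟩⟩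
      refine h2 u (Finset.mem_biUnion.mpr ⟨x, hx, hu⟩) fun i hi => hne ?_
      exact h4 u (hi ▸ (e i).2) hu
  refine le_trans ?_ (Finset.sum_le_sum fun e _ => one e)
  rw [Finset.sum_const, nsmul_eq_mul, Finset.card_univ, Fintype.card_embedding_eq,
    Fintype.card_fin, Fintype.card_coe]
  refine mul_le_mul_of_nonneg_right ?_ (by positivity)
  refine le_trans ?_ (Nat.cast_le.mpr (Nat.pow_sub_le_descFactorial U.card t))
  rw [Nat.cast_pow]
  refine pow_le_pow_left₀ (by positivity) ?_ t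
  rw [hS] at hUc
  have h1 : 2 * (t - 1) ≤ U.card := by
    have : r * (2 * (t - 1)) ≤ r * U.card := by
      calc r * (2 * (t - 1)) = 2 * r * (t - 1) := by ring
        _ ≤ _ := ht.trans hUc
    exact Nat.le_of_mul_le_mul_left this hr
  have h2 : w ≤ 2 * r * (U.card + 1 - t) := by
    refine hUc.trans ?_
    have : U.card ≤ 2 * (U.card + 1 - t) := by omega
    calc r * U.card ≤ r * (2 * (U.card + 1 - t)) := Nat.mul_le_mul_left _ this
      _ = _ := by ring
  rw [div_le_iff₀ (by positivity)]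
  exact_mod_cast (by rw [mul_comm]; exact h2)

/-- bound for the spectral weight of a class -/
theorem class_bound (f : (ι → Bool) → ℝ) (hf : ∀ x, f x = 0 ∨ f x = 1) (hsym : G.Symm f)
    (w D t : ℕ) (hr : 0 < r) (hw0 : 0 < w) (hw : w ≤ n) (htw : t ≤ w) (ht1 : 1 ≤ t)
    (ht : 2 * r * (t - 1) ≤ w) {θ ρ s : ℝ} (hθ : 0 < θ) (hρ : 0 < ρ) (hs : 0 < s)
    (hst : (n : ℝ) * 67 ^ t ≤ s ^ 4)
    (hcond : 4 * (4 / lam q) ^ D * ((w : ℝ) / n) ^ t ≤ θ ^ 8 * ρ ^ (2 * t)) :
    ∑ S ∈ G.cls w D, co q f S ^ 2 ≤ (2 * r * Real.exp 1) ^ t *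
      (2 * (2 ^ t * (θ ^ 2 * E q f + 4 * ρ * s * (2 * tinf q f + E q f)) + θ ^ 2 * E q f)) := by
  set Γ := 2 * (2 ^ t * (θ ^ 2 * E q f + 4 * ρ * s * (2 * tinf q f + E q f)) + θ ^ 2 * E q f)
    with hΓ
  set W := ∑ S ∈ G.cls w D, co q f S ^ 2 with hW
  have hμ : 0 ≤ E q f := E_nonneg q fun x => by rcases hf x with h | h <;> simp [h]
  have hI := tinf_nonneg q f
  have hΓ0 : 0 ≤ Γ := by positivity
  have W0 : 0 ≤ W := Finset.sum_nonneg fun S _ => sq_nonneg _
  have W1 : W ≤ 1 := by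
    refine le_trans (Finset.sum_le_sum_of_subset_of_nonneg (Finset.subset_univ _)
      fun S _ _ => sq_nonneg _) ?_
    rw [← parseval]
    exact E_le_const q fun x => by rcases hf x with h | h <;> simp [h]
  have each : ∀ a : Fin n → Fin t ⊕ Fin w, ∑ T ∈ Fintype.piFinset (cV a),
      ∑ S ∈ (G.cls w D).filter (Good (G.cB a) (G.cL a) T), co q f S ^ 2 ≤ Γ := by
    intro a
    refine good_mass_le q (G.cB a) f hf (G.cL a) (cV a) (cLay G a) n
      (fun j => by simpa using Finset.card_le_univ (cV a j)) _ D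
      (fun S hS => (Finset.mem_filter.mp hS).2.2) (((w : ℝ) / n) ^ t) ?_ hθ hρ hs hst hcond
    intro T hT
    have h1 := sym_bound q G hsym w D hw (by omega) (univ.image T)
    rw [Finset.card_image_of_injective _ (tup_inj a hT), Finset.card_univ, Fintype.card_fin] at h1
    refine le_trans (Finset.sum_le_sum_of_subset_of_nonneg ?_ fun S _ _ => sq_nonneg _)
      (h1.trans ?_)
    · intro S hS
      exact Finset.mem_filter.mpr ⟨(Finset.mem_filter.mp hS).1,
        good_subset G a (Finset.mem_filter.mp hS).2⟩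
    · exact mul_le_of_le_one_right (by positivity) W1
  have up := Finset.sum_le_sum fun a (_ : a ∈ (univ : Finset (Fin n → Fin t ⊕ Fin w))) => each a
  rw [Finset.sum_const, Finset.card_univ, nsmul_eq_mul] at up
  simp only [Fintype.card_pi, Fintype.card_sum, Fintype.card_fin, Finset.prod_const,
    Finset.card_univ] at up
  have low : ((w : ℝ) / (2 * r)) ^ t * (w ^ (w - t) * (t + w) ^ (n - w)) * W ≤
      ∑ a : Fin n → Fin t ⊕ Fin w, ∑ T ∈ Fintype.piFinset (cV a),
      ∑ S ∈ (G.cls w D).filter (Good (G.cB a) (G.cL a) T), co q f S ^ 2 := by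
    simp only [Finset.sum_filter]
    rw [Finset.sum_congr rfl fun a _ => Finset.sum_comm, Finset.sum_comm, hW, Finset.mul_sum]
    refine Finset.sum_le_sum fun S hS => ?_
    have h := mul_le_mul_of_nonneg_right
      (count_good G S (Finset.mem_filter.mp hS).2.1 hr ht ht1) (sq_nonneg (co q f S))
    refine h.trans (le_of_eq ?_)
    simp only [Finset.sum_mul, ite_mul, one_mul, zero_mul]
  have both := low.trans up
  push_cast at both
  have hw' : (0 : ℝ) < w := by exact_mod_cast hw0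
  have hr' : (0 : ℝ) < r := by exact_mod_cast hr
  have e1 : ((t : ℝ) + w) ^ n = (t + w) ^ w * (t + w) ^ (n - w) := by
    rw [← pow_add, Nat.add_sub_cancel' hw]
  have e2 : ((t : ℝ) + w) ^ w ≤ Real.exp 1 ^ t * w ^ w := by
    have h1 : (t : ℝ) + w ≤ Real.exp (t / w) * w := by
      have := Real.add_one_le_exp ((t : ℝ) / w)
      calc (t : ℝ) + w = (t / w + 1) * w := by field_simp
        _ ≤ _ := mul_le_mul_of_nonneg_right this hw'.le
    refine (pow_le_pow_left₀ (by positivity) h1 w).trans (le_of_eq ?_)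
    rw [mul_pow, ← Real.exp_nat_mul, ← Real.exp_nat_mul]
    congr 2; field_simp
  have e3 : (w : ℝ) ^ w = w ^ t * w ^ (w - t) := by rw [← pow_add, Nat.add_sub_cancel' htw]
  have pos : (0 : ℝ) < ((w : ℝ) / (2 * r)) ^ t * (w ^ (w - t) * (t + w) ^ (n - w)) := by positivity
  refine le_of_mul_le_mul_left (both.trans ?_) pos
  clear_value Γ
  rw [e1, ← mul_assoc]
  refine mul_le_mul_of_nonneg_right ?_ hΓ0
  calc ((t : ℝ) + w) ^ w * (t + w) ^ (n - w)
      ≤ (Real.exp 1 ^ t * w ^ w) * (t + w) ^ (n - w) :=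
        mul_le_mul_of_nonneg_right e2 (by positivity)
    _ = _ := by rw [e3, div_pow, mul_pow, mul_pow, mul_pow]; field_simp

end Crest.Agent.FK
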