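import Mathlib
import Crest.Prelude.Def_FinProb

/-! Conditional expectations on the biased cube, Efron–Stein level-one projections in a layer of
disjoint blocks, Bessel's inequality and a fourth moment inequality. -/

set_option autoImplicit false
set_option linter.unusedSectionVars false
set_option linter.unusedVariables false

namespace Crest.Agent.FK
open Finset

/-- a bias strictly between `0` and `1` -/
structure Pr where
  p : ℝ
  h0 : 0 < p
  h1 : p < 1

variable {ι : Type} [Fintype ι] [DecidableEq ι] (q : Pr)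

/-- one-coordinate weight -/
noncomputable def pr (b : Bool) : ℝ := if b then q.p else 1 - q.p

lemma pr_pos (b : Bool) : 0 < pr q b := by
  have := q.h0; have := q.h1
  cases b <;> simp [pr] <;> linarith

lemma pr_sum : ∑ b, pr q b = 1 := by simp [pr]

/-- product weight -/
noncomputable def wt (x : ι → Bool) : ℝ := ∏ i, pr q (x i)

lemma wt_pos (x : ι → Bool) : 0 < wt q x := Finset.prod_pos fun i _ => pr_pos q _

lemma wt_eq (x : ι → Bool) : wt q x = Crest.FinProb.bernoulliWeight q.p x := rfl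

/-- expectation -/
noncomputable def E (g : (ι → Bool) → ℝ) : ℝ := ∑ x, wt q x * g x

lemma E_prod (g : ι → Bool → ℝ) : E q (fun x => ∏ i, g i (x i)) = ∏ i, ∑ b, pr q b * g i b := by
  unfold E wt
  rw [Finset.prod_univ_sum, Fintype.piFinset_univ]
  exact Finset.sum_congr rfl fun ω _ => by rw [Finset.prod_mul_distrib]

lemma E_const (c : ℝ) : E q (fun _ : ι → Bool => c) = c := by
  have h := E_prod q (ι := ι) (fun _ _ => 1)
  simp only [Finset.prod_const_one, mul_one, pr_sum] at h
  unfold E at h ⊢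
  rw [← Finset.sum_mul]; simp only [mul_one] at h; rw [h, one_mul]

lemma E_add (f g : (ι → Bool) → ℝ) : E q (fun x => f x + g x) = E q f + E q g := by
  unfold E; rw [← Finset.sum_add_distrib]; exact Finset.sum_congr rfl fun ω _ => by ring

lemma E_sub (f g : (ι → Bool) → ℝ) : E q (fun x => f x - g x) = E q f - E q g := by
  unfold E; rw [← Finset.sum_sub_distrib]; exact Finset.sum_congr rfl fun ω _ => by ring

lemma E_mul_left (c : ℝ) (f : (ι → Bool) → ℝ) : E q (fun x => c * f x) = c * E q f := by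
  unfold E; rw [Finset.mul_sum]; exact Finset.sum_congr rfl fun ω _ => by ring

lemma E_mul_right (c : ℝ) (f : (ι → Bool) → ℝ) : E q (fun x => f x * c) = E q f * c := by
  unfold E; rw [Finset.sum_mul]; exact Finset.sum_congr rfl fun ω _ => by ring

lemma E_sum {α : Type*} (s : Finset α) (f : α → (ι → Bool) → ℝ) :
    E q (fun x => ∑ a ∈ s, f a x) = ∑ a ∈ s, E q (f a) := by
  unfold E; simp only [Finset.mul_sum]; exact Finset.sum_comm

lemma E_mono {f g : (ι → Bool) → ℝ} (h : ∀ x, f x ≤ g x) : E q f ≤ E q g :=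
  Finset.sum_le_sum fun ω _ => mul_le_mul_of_nonneg_left (h ω) (wt_pos q ω).le

lemma E_nonneg {f : (ι → Bool) → ℝ} (h : ∀ x, 0 ≤ f x) : 0 ≤ E q f :=
  Finset.sum_nonneg fun ω _ => mul_nonneg (wt_pos q ω).le (h ω)

lemma E_congr {f g : (ι → Bool) → ℝ} (h : ∀ x, f x = g x) : E q f = E q g := by
  rw [funext h]

lemma E_le_const {f : (ι → Bool) → ℝ} {c : ℝ} (h : ∀ x, f x ≤ c) : E q f ≤ c :=
  (E_mono q h).trans (E_const q c).le

lemma E_comm (F : (ι → Bool) → (ι → Bool) → ℝ) :
    E q (fun x => E q (fun y => F x y)) = E q (fun y => E q (fun x => F x y)) := by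
  unfold E; simp only [Finset.mul_sum]; rw [Finset.sum_comm]
  exact Finset.sum_congr rfl fun _ _ => Finset.sum_congr rfl fun _ _ => by ring

lemma E_abs (f : (ι → Bool) → ℝ) : |E q f| ≤ E q (fun x => |f x|) := by
  rw [abs_le]; constructor
  · have := E_mono q (f := fun x => (-1) * |f x|) (g := f) (fun x => by
      have := neg_abs_le (f x); linarith)
    rw [E_mul_left] at this; linarith
  · exact E_mono q fun x => le_abs_self _

lemma E_sq (f : (ι → Bool) → ℝ) : (E q f) ^ 2 ≤ E q (fun x => f x ^ 2) := by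
  have h := E_nonneg q (f := fun x => (f x - E q f) ^ 2) (fun x => sq_nonneg _)
  have h2 : E q (fun x => (f x - E q f) ^ 2)
      = E q (fun x => f x ^ 2) - (E q f) ^ 2 := by
    have : (fun x => (f x - E q f) ^ 2) =
        fun x => (f x ^ 2 - (2 * E q f) * f x) + (E q f) ^ 2 := by funext x; ring
    rw [this, E_add, E_sub, E_mul_left, E_const]; ring
  linarith

/-- Cauchy–Schwarz in product form -/
lemma E_mul_le {f g : (ι → Bool) → ℝ} {A B : ℝ} (hA : 0 ≤ A) (hB : 0 ≤ B)
    (hf : E q (fun x => f x ^ 2) ≤ A ^ 2) (hg : E q (fun x => g x ^ 2) ≤ B ^ 2) :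
    E q (fun x => f x * g x) ≤ A * B := by
  have h := Finset.sum_mul_sq_le_sq_mul_sq (univ : Finset (ι → Bool))
    (fun x => Real.sqrt (wt q x) * f x) (fun x => Real.sqrt (wt q x) * g x)
  have e1 : ∀ x, Real.sqrt (wt q x) * f x * (Real.sqrt (wt q x) * g x) = wt q x * (f x * g x) :=
    fun x => by
      have := Real.mul_self_sqrt (wt_pos q x).le
      calc _ = (Real.sqrt (wt q x) * Real.sqrt (wt q x)) * (f x * g x) := by ring
        _ = _ := by rw [this]
  have e2 : ∀ (k : (ι → Bool) → ℝ) x, (Real.sqrt (wt q x) * k x) ^ 2 = wt q x * k x ^ 2 :=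
    fun k x => by rw [mul_pow, Real.sq_sqrt (wt_pos q x).le]
  simp only [e1, e2] at h
  have h3 : (E q (fun x => f x * g x)) ^ 2 ≤ (A * B) ^ 2 := by
    rw [mul_pow]
    refine h.trans (mul_le_mul hf hg (E_nonneg q fun x => sq_nonneg _) (sq_nonneg _))
  exact le_of_sq_le_sq h3 (mul_nonneg hA hB) |> fun h => (le_abs_self _).trans (by
    exact abs_le_of_sq_le_sq' h3 (mul_nonneg hA hB) |> fun h => abs_le.mpr h)

section pw
variable (A B : Finset ι) (x y z : ι → Bool)

lemma pw_pw_swap : A.piecewise (A.piecewise x y) (A.piecewise y x) = x := by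
  funext i; by_cases h : i ∈ A <;> simp [Finset.piecewise, h]

lemma pw_pw_union : B.piecewise z (A.piecewise y x) = (A ∪ B).piecewise (B.piecewise z y) x := by
  funext i; by_cases h : i ∈ A <;> by_cases h' : i ∈ B <;> simp [Finset.piecewise, h, h']

lemma pw_pw_comm : A.piecewise z (B.piecewise y x)
    = B.piecewise (A.piecewise z y) (A.piecewise z x) := by
  funext i; by_cases h : i ∈ A <;> by_cases h' : i ∈ B <;> simp [Finset.piecewise, h, h']

lemma pw_pw_disj (h : Disjoint A B) :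
    A.piecewise z (B.piecewise y x) = B.piecewise y (A.piecewise z x) := by
  funext i
  by_cases h1 : i ∈ A
  · have h2 : i ∉ B := Finset.disjoint_left.mp h h1
    simp [Finset.piecewise, h1, h2]
  · by_cases h' : i ∈ B <;> simp [Finset.piecewise, h1, h']

lemma wt_pw : wt q (A.piecewise x y) * wt q (A.piecewise y x) = wt q x * wt q y := by
  unfold wt; rw [← Finset.prod_mul_distrib, ← Finset.prod_mul_distrib]
  refine Finset.prod_congr rfl fun i _ => ?_
  by_cases h : i ∈ A <;> simp [Finset.piecewise, h, mul_comm]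
end pw

/-- the swap of the coordinates in `A` preserves the double expectation -/
lemma EE_swap (A : Finset ι) (F : (ι → Bool) → (ι → Bool) → ℝ) :
    E q (fun x => E q (fun y => F (A.piecewise y x) (A.piecewise x y)))
      = E q (fun x => E q (fun y => F x y)) := by
  unfold E; simp only [Finset.mul_sum]
  rw [← Finset.sum_product', ← Finset.sum_product', Finset.univ_product_univ]
  let e : (ι → Bool) × (ι → Bool) ≃ (ι → Bool) × (ι → Bool) :=
    { toFun := fun z => (A.piecewise z.2 z.1, A.piecewise z.1 z.2)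
      invFun := fun z => (A.piecewise z.2 z.1, A.piecewise z.1 z.2)
      left_inv := fun z => by simp only [pw_pw_swap]
      right_inv := fun z => by simp only [pw_pw_swap] }
  refine Fintype.sum_equiv e _ _ fun z => ?_
  simp only [e, Equiv.coe_fn_mk]
  rw [← mul_assoc, ← mul_assoc, wt_pw]; ring

lemma EE_pw (A : Finset ι) (g : (ι → Bool) → ℝ) :
    E q (fun x => E q (fun y => g (A.piecewise y x))) = E q g := by
  have := EE_swap q A (fun x _ => g x)
  simp only [E_const] at this; exact this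

/-- conditional expectation: average over the coordinates in `A` -/
noncomputable def Ex (A : Finset ι) (g : (ι → Bool) → ℝ) : (ι → Bool) → ℝ :=
  fun x => E q (fun y => g (A.piecewise y x))

/-- `g` does not depend on the coordinates in `A` -/
def Inv (A : Finset ι) (g : (ι → Bool) → ℝ) : Prop := ∀ x y, g (A.piecewise y x) = g x

section ex
variable (A B : Finset ι)

lemma E_Ex (g : (ι → Bool) → ℝ) : E q (Ex q A g) = E q g := EE_pw q A g

lemma Ex_add (f g : (ι → Bool) → ℝ) (x : ι → Bool) :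
    Ex q A (fun x => f x + g x) x = Ex q A f x + Ex q A g x := E_add q _ _
lemma Ex_sub (f g : (ι → Bool) → ℝ) (x : ι → Bool) :
    Ex q A (fun x => f x - g x) x = Ex q A f x - Ex q A g x := E_sub q _ _
lemma Ex_mul_left (c : ℝ) (f : (ι → Bool) → ℝ) (x : ι → Bool) :
    Ex q A (fun x => c * f x) x = c * Ex q A f x := E_mul_left q _ _
lemma Ex_sum {α : Type*} (s : Finset α) (f : α → (ι → Bool) → ℝ) (x : ι → Bool) :
    Ex q A (fun x => ∑ a ∈ s, f a x) x = ∑ a ∈ s, Ex q A (f a) x := E_sum q _ _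
lemma Ex_mono {f g : (ι → Bool) → ℝ} (h : ∀ x, f x ≤ g x) (x : ι → Bool) :
    Ex q A f x ≤ Ex q A g x := E_mono q fun _ => h _
lemma Ex_nonneg {f : (ι → Bool) → ℝ} (h : ∀ x, 0 ≤ f x) (x : ι → Bool) :
    0 ≤ Ex q A f x := E_nonneg q fun _ => h _
lemma Ex_le_const {f : (ι → Bool) → ℝ} {c : ℝ} (h : ∀ x, f x ≤ c) (x : ι → Bool) :
    Ex q A f x ≤ c := E_le_const q fun _ => h _
lemma Ex_sq (f : (ι → Bool) → ℝ) (x : ι → Bool) :
    (Ex q A f x) ^ 2 ≤ Ex q A (fun x => f x ^ 2) x := E_sq q _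
lemma Ex_abs (f : (ι → Bool) → ℝ) (x : ι → Bool) :
    |Ex q A f x| ≤ Ex q A (fun x => |f x|) x := E_abs q _
lemma Ex_congr {f g : (ι → Bool) → ℝ} (h : ∀ x, f x = g x) (x : ι → Bool) :
    Ex q A f x = Ex q A g x := by rw [funext h]

lemma Ex_Ex (g : (ι → Bool) → ℝ) : Ex q A (Ex q B g) = Ex q (A ∪ B) g := by
  funext x
  unfold Ex
  simp only [pw_pw_union]
  exact EE_pw q B (fun y => g ((A ∪ B).piecewise y x))

lemma Ex_comm (g : (ι → Bool) → ℝ) : Ex q A (Ex q B g) = Ex q B (Ex q A g) := by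
  rw [Ex_Ex, Ex_Ex, Finset.union_comm]

variable {A B}
lemma Ex_mul_inv {g : (ι → Bool) → ℝ} (hg : Inv A g) (k : (ι → Bool) → ℝ) (x : ι → Bool) :
    Ex q A (fun x => g x * k x) x = g x * Ex q A k x := by
  unfold Ex; simp only [hg x]; exact E_mul_left q _ _

lemma Ex_of_inv {g : (ι → Bool) → ℝ} (hg : Inv A g) : Ex q A g = g := by
  funext x; unfold Ex; simp only [hg x]; exact E_const q _

lemma Inv.ex {g : (ι → Bool) → ℝ} (hg : Inv B g) (A : Finset ι) : Inv B (Ex q A g) := by
  intro x y; unfold Ex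
  refine E_congr q fun z => ?_
  rw [pw_pw_comm, hg]

lemma Inv.mono {g : (ι → Bool) → ℝ} (hg : Inv B g) (h : A ⊆ B) : Inv A g := by
  intro x y
  have : A.piecewise y x = B.piecewise (A.piecewise y x) x := by
    funext i
    by_cases h1 : i ∈ A
    · simp [Finset.piecewise, h1, h h1]
    · by_cases h2 : i ∈ B <;> simp [Finset.piecewise, h1, h2]
  rw [this, hg]

lemma inv_Ex (A : Finset ι) (g : (ι → Bool) → ℝ) : Inv A (Ex q A g) := by
  intro x y; unfold Ex
  refine E_congr q fun z => ?_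
  congr 1; funext i; by_cases h : i ∈ A <;> simp [Finset.piecewise, h]

lemma Inv.sub {f g : (ι → Bool) → ℝ} (hf : Inv A f) (hg : Inv A g) :
    Inv A (fun x => f x - g x) := fun x y => by simp only [hf x y, hg x y]
lemma Inv.mul {f g : (ι → Bool) → ℝ} (hf : Inv A f) (hg : Inv A g) :
    Inv A (fun x => f x * g x) := fun x y => by simp only [hf x y, hg x y]
lemma Inv.pow {f : (ι → Bool) → ℝ} (hf : Inv A f) (k : ℕ) :
    Inv A (fun x => f x ^ k) := fun x y => by simp only [hf x y]
lemma Inv.const (c : ℝ) : Inv A (fun _ => c) := fun _ _ => rfl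
lemma Inv.sum {α : Type*} (s : Finset α) {f : α → (ι → Bool) → ℝ} (hf : ∀ a ∈ s, Inv A (f a)) :
    Inv A (fun x => ∑ a ∈ s, f a x) := fun x y =>
  Finset.sum_congr rfl fun a ha => hf a ha x y

lemma E_mul_inv {g : (ι → Bool) → ℝ} (hg : Inv A g) (k : (ι → Bool) → ℝ) :
    E q (fun x => g x * k x) = E q (fun x => g x * Ex q A k x) := by
  rw [← E_Ex q A]; exact E_congr q fun x => Ex_mul_inv q hg k x

lemma Ex_adj (A : Finset ι) (f g : (ι → Bool) → ℝ) :
    E q (fun x => Ex q A f x * g x) = E q (fun x => f x * Ex q A g x) := by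
  rw [E_mul_inv q (inv_Ex q A f)]
  have := E_mul_inv q (inv_Ex q A g) f
  simp only [mul_comm (Ex q A g _)] at this
  rw [this]

lemma Ex_subst (h : Disjoint A B) (g : (ι → Bool) → ℝ) (ω x : ι → Bool) :
    Ex q A (fun x => g (B.piecewise ω x)) x = Ex q A g (B.piecewise ω x) := by
  unfold Ex; simp only [pw_pw_disj A B _ _ _ h]

/-- independence: `f` ignores `B`, `g` ignores `L \ B` -/
lemma Ex_indep {L : Finset ι} (hB : B ⊆ L) {f g : (ι → Bool) → ℝ} (hf : Inv B f)
    (hg : Inv (L \ B) g) (x : ι → Bool) :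
    Ex q L (fun x => f x * g x) x = Ex q L f x * Ex q L g x := by
  have e : B ∪ (L \ B) = L := Finset.union_sdiff_of_subset hB
  have e' : (L \ B) ∪ B = L := Finset.sdiff_union_of_subset hB
  have h1 : Ex q (L \ B) (fun x => f x * g x) = fun x => Ex q (L \ B) f x * g x := by
    funext x
    rw [Ex_congr q _ (fun x => mul_comm (f x) (g x)), Ex_mul_inv q hg, mul_comm]
  have h2 : Ex q L f = Ex q (L \ B) f := by
    conv_lhs => rw [← e', ← Ex_Ex, Ex_of_inv q hf]
  have h3 : Ex q L g = Ex q B g := by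
    conv_lhs => rw [← e, ← Ex_Ex, Ex_of_inv q hg]
  conv_lhs => rw [← e, ← Ex_Ex, h1, Ex_mul_inv q (hf.ex q _)]
  rw [h2, h3]
end ex

/-- Efron–Stein projection: the part depending, inside the layer `L`, exactly on the block `B` -/
noncomputable def P (L B : Finset ι) (g : (ι → Bool) → ℝ) : (ι → Bool) → ℝ :=
  fun x => Ex q (L \ B) g x - Ex q L g x

section proj
variable (L B : Finset ι)

lemma P_sub (f g : (ι → Bool) → ℝ) :
    P q L B (fun x => f x - g x) = fun x => P q L B f x - P q L B g x := by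
  funext x; unfold P; rw [Ex_sub, Ex_sub]; ring

lemma P_add (f g : (ι → Bool) → ℝ) :
    P q L B (fun x => f x + g x) = fun x => P q L B f x + P q L B g x := by
  funext x; unfold P; rw [Ex_add, Ex_add]; ring

lemma P_mul_left (c : ℝ) (f : (ι → Bool) → ℝ) :
    P q L B (fun x => c * f x) = fun x => c * P q L B f x := by
  funext x; unfold P; rw [Ex_mul_left, Ex_mul_left]; ring

lemma P_sum {α : Type*} (s : Finset α) (f : α → (ι → Bool) → ℝ) :
    P q L B (fun x => ∑ a ∈ s, f a x) = fun x => ∑ a ∈ s, P q L B (f a) x := by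
  funext x; unfold P; rw [Ex_sum, Ex_sum, Finset.sum_sub_distrib]

lemma Ex_P (A : Finset ι) (g : (ι → Bool) → ℝ) : Ex q A (P q L B g) = P q L B (Ex q A g) := by
  funext x; unfold P; rw [Ex_sub, Ex_comm, Ex_comm q A]

lemma P_comm (L' B' : Finset ι) (g : (ι → Bool) → ℝ) :
    P q L' B' (P q L B g) = P q L B (P q L' B' g) := by
  funext x
  conv_lhs => unfold P
  conv_rhs => rw [show P q L' B' g = fun x => Ex q (L' \ B') g x - Ex q L' g x from rfl, P_sub]
  have h1 := congrFun (Ex_P q L B (L' \ B') g) x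
  have h2 := congrFun (Ex_P q L B L' g) x
  unfold P at h1 h2 ⊢
  rw [h1, h2]

lemma P_adj (f g : (ι → Bool) → ℝ) :
    E q (fun x => P q L B f x * g x) = E q (fun x => f x * P q L B g x) := by
  unfold P; simp only [sub_mul, mul_sub, E_sub, Ex_adj]

lemma P_subst {A : Finset ι} (h : Disjoint L A) (g : (ι → Bool) → ℝ) (ω : ι → Bool) :
    P q L B (fun x => g (A.piecewise ω x)) = fun x => P q L B g (A.piecewise ω x) := by
  funext x; unfold P
  rw [Ex_subst q h, Ex_subst q (Finset.disjoint_of_subset_left Finset.sdiff_subset h)]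

lemma inv_P (g : (ι → Bool) → ℝ) : Inv (L \ B) (P q L B g) :=
  (inv_Ex q _ g).sub ((inv_Ex q _ g).mono Finset.sdiff_subset)

lemma Ex_P_self (g : (ι → Bool) → ℝ) (x : ι → Bool) : Ex q L (P q L B g) x = 0 := by
  unfold P; rw [Ex_sub, Ex_Ex, Ex_Ex]
  rw [Finset.union_eq_left.mpr Finset.sdiff_subset, Finset.union_self]; ring

variable {L B}
lemma Ex_P_block (hB : B ⊆ L) (g : (ι → Bool) → ℝ) (x : ι → Bool) :
    Ex q B (P q L B g) x = 0 := by
  unfold P; rw [Ex_sub, Ex_Ex, Ex_Ex]
  rw [Finset.union_sdiff_of_subset hB, Finset.union_eq_right.mpr hB]; ring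

lemma inv_P_other {B' : Finset ι} (hB' : B' ⊆ L) (h : Disjoint B' B) (g : (ι → Bool) → ℝ) :
    Inv B' (P q L B g) :=
  (inv_P q L B g).mono (Finset.subset_sdiff.mpr ⟨hB', h⟩)

/-- a function ignoring the block is orthogonal to the projection -/
lemma Ex_mul_P (hB : B ⊆ L) {f : (ι → Bool) → ℝ} (hf : Inv B f) (g : (ι → Bool) → ℝ)
    (x : ι → Bool) : Ex q L (fun x => f x * P q L B g x) x = 0 := by
  rw [Ex_indep q hB hf (inv_P q L B g), Ex_P_self, mul_zero]

lemma Ex_self_mul_P (hB : B ⊆ L) (g : (ι → Bool) → ℝ) (x : ι → Bool) :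
    Ex q L (fun x => g x * P q L B g x) x = Ex q L (fun x => P q L B g x ^ 2) x := by
  have e : L ∪ (L \ B) = L := Finset.union_eq_left.mpr Finset.sdiff_subset
  have h1 : Ex q (L \ B) (fun x => g x * P q L B g x)
      = fun x => P q L B g x ^ 2 + Ex q L g x * P q L B g x := by
    funext x
    rw [Ex_congr q _ (fun x => mul_comm (g x) _), Ex_mul_inv q (inv_P q L B g)]
    have : Ex q (L \ B) g x = P q L B g x + Ex q L g x := by unfold P; ring
    rw [this]; ring
  conv_lhs => rw [← e, ← Ex_Ex, e, h1, Ex_add, Ex_mul_P q hB ((inv_Ex q L g).mono hB)]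
  ring

/-- weighted pointwise bound for the projection -/
lemma P_wsq {H : Type} [Fintype H] (w : H → ℝ) (hw : ∀ h, 0 ≤ w h) (L B : Finset ι)
    (Y : H → (ι → Bool) → ℝ) (x : ι → Bool) :
    ∑ h, w h * P q L B (Y h) x ^ 2 ≤ 2 * Ex q (L \ B) (fun x => ∑ h, w h * Y h x ^ 2) x
      + 2 * Ex q L (fun x => ∑ h, w h * Y h x ^ 2) x := by
  rw [Ex_sum, Ex_sum, Finset.mul_sum, Finset.mul_sum, ← Finset.sum_add_distrib]
  refine Finset.sum_le_sum fun h _ => ?_
  rw [Ex_mul_left, Ex_mul_left]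
  have h1 := Ex_sq q (L \ B) (Y h) x
  have h2 := Ex_sq q L (Y h) x
  have h3 : P q L B (Y h) x ^ 2 ≤ 2 * Ex q (L \ B) (fun x => Y h x ^ 2) x
      + 2 * Ex q L (fun x => Y h x ^ 2) x := by
    unfold P; nlinarith [sq_nonneg (Ex q (L \ B) (Y h) x + Ex q L (Y h) x)]
  nlinarith [hw h]
end proj

section layer
variable {β : Type} [DecidableEq β] {L : Finset ι} {B : β → Finset ι}

/-- conditional Bessel inequality -/
lemma bessel (V : Finset β) (hB : ∀ v ∈ V, B v ⊆ L)
    (hd : ∀ u ∈ V, ∀ v ∈ V, u ≠ v → Disjoint (B u) (B v)) (g : (ι → Bool) → ℝ) (x : ι → Bool) :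
    ∑ v ∈ V, Ex q L (fun x => P q L (B v) g x ^ 2) x ≤ Ex q L (fun x => g x ^ 2) x := by
  have h0 := Ex_nonneg q L (f := fun x => (g x - ∑ v ∈ V, P q L (B v) g x) ^ 2)
    (fun x => sq_nonneg _) x
  have e : (fun x => (g x - ∑ v ∈ V, P q L (B v) g x) ^ 2) = fun x =>
      (g x ^ 2 - 2 * ∑ v ∈ V, g x * P q L (B v) g x)
        + ∑ u ∈ V, ∑ v ∈ V, P q L (B u) g x * P q L (B v) g x := by
    funext x; rw [← Finset.sum_mul_sum, ← Finset.mul_sum]; ring
  rw [e, Ex_add, Ex_sub, Ex_mul_left, Ex_sum, Ex_sum] at h0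
  have h1 : ∑ v ∈ V, Ex q L (fun x => g x * P q L (B v) g x) x
      = ∑ v ∈ V, Ex q L (fun x => P q L (B v) g x ^ 2) x :=
    Finset.sum_congr rfl fun v hv => Ex_self_mul_P q (hB v hv) g x
  have h2 : ∑ u ∈ V, Ex q L (fun x => ∑ v ∈ V, P q L (B u) g x * P q L (B v) g x) x
      = ∑ v ∈ V, Ex q L (fun x => P q L (B v) g x ^ 2) x := by
    refine Finset.sum_congr rfl fun u hu => ?_
    rw [Ex_sum, Finset.sum_eq_single u]
    · exact Ex_congr q _ (fun x => by ring) x
    · intro v hv hne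
      exact Ex_mul_P q (hB v hv) (inv_P_other q (hB v hv) (hd v hv u hu hne) g) g x
    · intro h; exact absurd hu h
  rw [h1, h2] at h0; linarith

lemma bessel_E (V : Finset β) (hB : ∀ v ∈ V, B v ⊆ L)
    (hd : ∀ u ∈ V, ∀ v ∈ V, u ≠ v → Disjoint (B u) (B v)) (g : (ι → Bool) → ℝ) :
    ∑ v ∈ V, E q (fun x => P q L (B v) g x ^ 2) ≤ E q (fun x => g x ^ 2) := by
  have := E_mono q (bessel q V hB hd g)
  rw [E_sum] at this
  simp only [E_Ex] at this
  exact this

lemma P_contr {B' : Finset ι} (hB : B' ⊆ L) (g : (ι → Bool) → ℝ) (x : ι → Bool) :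
    Ex q L (fun x => P q L B' g x ^ 2) x ≤ Ex q L (fun x => g x ^ 2) x := by
  have := bessel q (β := Unit) (B := fun _ => B') {()} (fun _ _ => hB)
    (fun u _ v _ h => absurd rfl h) g x
  simpa using this

/-- fourth moment of a sum of independent centred vectors -/
lemma fourth_layer {H : Type} [Fintype H] (w : H → ℝ) (hw : ∀ h, 0 ≤ w h)
    (Y : β → H → (ι → Bool) → ℝ) (V : Finset β) (hB : ∀ v ∈ V, B v ⊆ L)
    (hd : ∀ u ∈ V, ∀ v ∈ V, u ≠ v → Disjoint (B u) (B v)) (x : ι → Bool) :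
    Ex q L (fun x => (∑ h, w h * (∑ v ∈ V, P q L (B v) (Y v h) x) ^ 2) ^ 2) x
      ≤ 3 * (∑ v ∈ V, Ex q L (fun x => ∑ h, w h * P q L (B v) (Y v h) x ^ 2) x) ^ 2
        + ∑ v ∈ V, Ex q L (fun x => (∑ h, w h * P q L (B v) (Y v h) x ^ 2) ^ 2) x ∧
    Ex q L (fun x => ∑ h, w h * (∑ v ∈ V, P q L (B v) (Y v h) x) ^ 2) x
      = ∑ v ∈ V, Ex q L (fun x => ∑ h, w h * P q L (B v) (Y v h) x ^ 2) x := by
  induction V using Finset.induction_on with
  | empty => simp [Ex, E_const]
  | insert u V hu ih =>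
    have hB' : ∀ v ∈ V, B v ⊆ L := fun v hv => hB v (Finset.mem_insert_of_mem hv)
    obtain ⟨ih1, ih2⟩ := ih hB' fun a ha b hb =>
      hd a (Finset.mem_insert_of_mem ha) b (Finset.mem_insert_of_mem hb)
    have hBu : B u ⊆ L := hB u (Finset.mem_insert_self _ _)
    simp only [Finset.sum_insert hu]
    set Z : H → (ι → Bool) → ℝ := fun h x => ∑ v ∈ V, P q L (B v) (Y v h) x with hZ
    set X : H → (ι → Bool) → ℝ := fun h => P q L (B u) (Y u h) with hX
    have iZ : ∀ h, Inv (B u) (Z h) := fun h => Inv.sum V fun v hv =>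
      inv_P_other q hBu (hd u (Finset.mem_insert_self _ _) v (Finset.mem_insert_of_mem hv)
        (fun e => hu (e ▸ hv))) _
    have iX : ∀ h, Inv (L \ B u) (X h) := fun h => inv_P q L (B u) _
    have mZ : ∀ h x, Ex q L (Z h) x = 0 := fun h x => by
      rw [hZ]; simp only []; rw [Ex_sum]; exact Finset.sum_eq_zero fun v _ => Ex_P_self q _ _ _ _
    have mX : ∀ h x, Ex q L (X h) x = 0 := fun h x => Ex_P_self q _ _ _ _
    set a : (ι → Bool) → ℝ := fun x => ∑ h, w h * Z h x ^ 2 with ha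
    set b : (ι → Bool) → ℝ := fun x => ∑ h, w h * X h x ^ 2 with hb
    set c : (ι → Bool) → ℝ := fun x => ∑ h, w h * (Z h x * X h x) with hc
    have ia : Inv (B u) a := Inv.sum _ fun h _ => (Inv.const _).mul ((iZ h).pow 2)
    have ib : Inv (L \ B u) b := Inv.sum _ fun h _ => (Inv.const _).mul ((iX h).pow 2)
    have esum : ∀ x, ∑ h, w h * (X h x + Z h x) ^ 2 = a x + 2 * c x + b x := fun x => by
      simp only [ha, hb, hc, Finset.mul_sum, ← Finset.sum_add_distrib]
      exact Finset.sum_congr rfl fun h _ => by ring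
    have cs : ∀ x, c x ^ 2 ≤ a x * b x := fun x => by
      have h := Finset.sum_mul_sq_le_sq_mul_sq (univ : Finset H)
        (fun h => Real.sqrt (w h) * Z h x) (fun h => Real.sqrt (w h) * X h x)
      have e1 : ∀ h, Real.sqrt (w h) * Z h x * (Real.sqrt (w h) * X h x)
          = w h * (Z h x * X h x) := fun h => by
        have := Real.mul_self_sqrt (hw h)
        calc _ = (Real.sqrt (w h) * Real.sqrt (w h)) * (Z h x * X h x) := by ring
          _ = _ := by rw [this]
      have e2 : ∀ h (t : ℝ), (Real.sqrt (w h) * t) ^ 2 = w h * t ^ 2 :=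
        fun h t => by rw [mul_pow, Real.sq_sqrt (hw h)]
      simp only [e1, e2] at h
      exact h
    have mc : Ex q L c x = 0 := by
      rw [hc, Ex_sum]
      refine Finset.sum_eq_zero fun h _ => ?_
      rw [Ex_mul_left, Ex_indep q hBu (iZ h) (iX h), mX, mul_zero, mul_zero]
    have mac : Ex q L (fun x => a x * c x) x = 0 := by
      have : (fun x => a x * c x) = fun x => ∑ h, w h * ((a x * Z h x) * X h x) := by
        funext x; simp only [hc, Finset.mul_sum]; exact Finset.sum_congr rfl fun h _ => by ring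
      rw [this, Ex_sum]
      refine Finset.sum_eq_zero fun h _ => ?_
      rw [Ex_mul_left, Ex_indep q hBu (ia.mul (iZ h)) (iX h), mX, mul_zero, mul_zero]
    have mbc : Ex q L (fun x => b x * c x) x = 0 := by
      have : (fun x => b x * c x) = fun x => ∑ h, w h * (Z h x * (b x * X h x)) := by
        funext x; simp only [hc, Finset.mul_sum]; exact Finset.sum_congr rfl fun h _ => by ring
      rw [this, Ex_sum]
      refine Finset.sum_eq_zero fun h _ => ?_
      rw [Ex_mul_left, Ex_indep q hBu (iZ h) (ib.mul (iX h)), mZ, zero_mul, mul_zero]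
    have mab : Ex q L (fun x => a x * b x) x = Ex q L a x * Ex q L b x := Ex_indep q hBu ia ib x
    change Ex q L (fun x => (∑ h, w h * (X h x + Z h x) ^ 2) ^ 2) x ≤
      3 * (Ex q L b x + _) ^ 2 + (Ex q L (fun x => b x ^ 2) x + _) ∧
      Ex q L (fun x => ∑ h, w h * (X h x + Z h x) ^ 2) x = Ex q L b x + _
    change Ex q L (fun x => a x ^ 2) x ≤ _ at ih1
    change Ex q L a x = _ at ih2
    simp only [esum]
    rw [← ih2] at ih1 ⊢
    constructor
    · have h1 : Ex q L (fun x => (a x + 2 * c x + b x) ^ 2) x ≤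
          Ex q L (fun x => (a x ^ 2 + b x ^ 2) + (6 * (a x * b x)
            + (4 * (a x * c x) + 4 * (b x * c x)))) x :=
        Ex_mono q L (fun x => by nlinarith [cs x]) x
      rw [Ex_add, Ex_add, Ex_add, Ex_add, Ex_mul_left, Ex_mul_left, Ex_mul_left, mab, mac,
        mbc] at h1
      nlinarith [sq_nonneg (Ex q L b x)]
    · rw [Ex_add, Ex_add, Ex_mul_left, mc]; ring
end layer

end Crest.Agent.FK
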