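import Crest.Agent.FK.Chaos

/-! Fourier–Walsh analysis on the biased cube. -/

set_option autoImplicit false
set_option linter.unusedSectionVars false
set_option linter.unusedVariables false
set_option linter.unusedSimpArgs false
set_option linter.unnecessarySeqFocus false

namespace Crest.Agent.FK
open Finset

variable {ι : Type} [Fintype ι] [DecidableEq ι] (q : Pr)

/-- the variance `p(1-p)` of one coin -/
noncomputable def lam : ℝ := q.p * (1 - q.p)

lemma lam_pos : 0 < lam q := mul_pos q.h0 (by linarith [q.h1])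
lemma lam_le : lam q ≤ 1 / 4 := by unfold lam; nlinarith [sq_nonneg (q.p - 1 / 2)]

/-- standard deviation of one coin -/
noncomputable def sd : ℝ := Real.sqrt (lam q)
lemma sd_pos : 0 < sd q := Real.sqrt_pos.mpr (lam_pos q)
lemma sd_sq : sd q ^ 2 = q.p * (1 - q.p) := Real.sq_sqrt (lam_pos q).le

/-- normalised coin -/
noncomputable def phi (b : Bool) : ℝ := if b then (1 - q.p) / sd q else -q.p / sd q

lemma phi_mean : ∑ b, pr q b * phi q b = 0 := by
  simp [pr, phi]; field_simp; ring

lemma phi_sq : ∑ b, pr q b * phi q b ^ 2 = 1 := by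
  have h := sd_sq q; have h0 := (sd_pos q).ne'
  simp [pr, phi]; field_simp; rw [h]; ring

lemma phi_cube : (∑ b, pr q b * phi q b ^ 3) ^ 2 ≤ 1 / lam q := by
  have h := sd_sq q; have h0 := (sd_pos q).ne'
  have e : ∑ b, pr q b * phi q b ^ 3 = (1 - 2 * q.p) / sd q := by
    simp [pr, phi]; field_simp; rw [h]; ring
  rw [e, div_pow, h]
  refine div_le_div_of_nonneg_right ?_ (lam_pos q).le
  nlinarith [q.h0, q.h1]

lemma phi_four : ∑ b, pr q b * phi q b ^ 4 ≤ 1 / lam q := by
  have h := sd_sq q; have h0 := (sd_pos q).ne'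
  have h1 := q.h0; have h2 := q.h1
  have h3 : (1 - q.p) ≠ 0 := by linarith
  have h4 : sd q ^ 4 = (q.p * (1 - q.p)) ^ 2 := by rw [← h]; ring
  have e : ∑ b, pr q b * phi q b ^ 4 = ((1 - q.p) ^ 3 + q.p ^ 3) / lam q := by
    simp only [pr, phi, Fintype.sum_bool, if_true, Bool.false_eq_true, if_false, div_pow, h4, lam]
    field_simp
  rw [e]
  refine div_le_div_of_nonneg_right ?_ (lam_pos q).le
  nlinarith [mul_pos h1 (sub_pos.mpr h2)]

lemma phi_complete (a b : Bool) : pr q b * (1 + phi q a * phi q b) = if a = b then 1 else 0 := by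
  have h := sd_sq q; have h0 := (sd_pos q).ne'
  have e1 : (1 - q.p) / sd q * (-q.p / sd q) = -1 := by field_simp; rw [h]
  have e2 : -q.p / sd q * ((1 - q.p) / sd q) = -1 := by rw [mul_comm]; exact e1
  cases a <;> cases b
  · simp [pr, phi]; field_simp; rw [h]; ring
  · simp only [pr, phi, if_true, Bool.false_eq_true, if_false, e2]; simp
  · simp only [pr, phi, if_true, Bool.false_eq_true, if_false, e1]; simp
  · simp [pr, phi]; field_simp; rw [h]; ring

/-- characters -/
noncomputable def chi (S : Finset ι) (x : ι → Bool) : ℝ := ∏ e ∈ S, phi q (x e)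

/-- Fourier coefficients -/
noncomputable def co (f : (ι → Bool) → ℝ) (S : Finset ι) : ℝ := E q (fun x => f x * chi q S x)

lemma chi_eq (S : Finset ι) (x : ι → Bool) :
    chi q S x = ∏ e, if e ∈ S then phi q (x e) else 1 := by
  unfold chi; rw [Finset.prod_ite_mem, Finset.univ_inter]

lemma E_chi_mul (S T : Finset ι) :
    E q (fun x => chi q S x * chi q T x) = if S = T then 1 else 0 := by
  simp only [chi_eq, ← Finset.prod_mul_distrib]
  rw [E_prod q (fun e b => (if e ∈ S then phi q b else 1) * (if e ∈ T then phi q b else 1))]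
  split_ifs with h
  · subst h
    refine Finset.prod_eq_one fun e _ => ?_
    by_cases he : e ∈ S
    · simp only [if_pos he, ← sq]; exact phi_sq q
    · simp only [if_neg he, mul_one]; exact pr_sum q
  · have : ∃ e, ¬ (e ∈ S ↔ e ∈ T) := by
      by_contra hc; push Not at hc; exact h (Finset.ext hc)
    obtain ⟨e, he⟩ := this
    refine Finset.prod_eq_zero (Finset.mem_univ e) ?_
    by_cases h1 : e ∈ S
    · have h2 : e ∉ T := fun h2 => he ⟨fun _ => h2, fun _ => h1⟩
      simp only [if_pos h1, if_neg h2, mul_one]; exact phi_mean q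
    · have h2 : e ∈ T := by
        by_contra h2; exact he ⟨fun h => absurd h h1, fun h => absurd h h2⟩
      simp only [if_neg h1, if_pos h2, one_mul]; exact phi_mean q

lemma expand (f : (ι → Bool) → ℝ) (x : ι → Bool) : f x = ∑ S, co q f S * chi q S x := by
  have key : ∀ y : ι → Bool, wt q y * ∑ S, chi q S y * chi q S x = if y = x then 1 else 0 := by
    intro y
    have h1 : ∑ S, chi q S y * chi q S x = ∏ e, (1 + phi q (x e) * phi q (y e)) := by
      rw [Finset.prod_one_add, Finset.powerset_univ]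
      refine Finset.sum_congr rfl fun S _ => ?_
      unfold chi; rw [← Finset.prod_mul_distrib]
      exact Finset.prod_congr rfl fun e _ => mul_comm _ _
    rw [h1]; unfold wt
    rw [← Finset.prod_mul_distrib]
    simp only [phi_complete]
    split_ifs with h
    · subst h; simp
    · obtain ⟨e, he⟩ := Function.ne_iff.mp h
      exact Finset.prod_eq_zero (Finset.mem_univ e) (if_neg (Ne.symm he))
  have : ∑ S, co q f S * chi q S x = ∑ y, f y * (wt q y * ∑ S, chi q S y * chi q S x) := by
    unfold co E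
    simp only [Finset.sum_mul, Finset.mul_sum]
    rw [Finset.sum_comm]
    exact Finset.sum_congr rfl fun y _ => Finset.sum_congr rfl fun S _ => by ring
  rw [this]; simp only [key]; simp

lemma expand' (f : (ι → Bool) → ℝ) : f = fun x => ∑ S, co q f S * chi q S x :=
  funext (expand q f)

lemma E_sum_mul (s : Finset (Finset ι)) (a b : Finset ι → ℝ) :
    E q (fun x => (∑ S, a S * chi q S x) * (∑ S ∈ s, b S * chi q S x)) = ∑ S ∈ s, a S * b S := by
  simp only [Finset.mul_sum, Finset.sum_mul]
  rw [E_sum]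
  refine Finset.sum_congr rfl fun T _ => ?_
  rw [E_sum]
  have : ∀ S, E q (fun x => a S * chi q S x * (b T * chi q T x))
      = if S = T then a S * b T else 0 := fun S => by
    rw [E_congr q (g := fun x => (a S * b T) * (chi q S x * chi q T x)) (fun x => by ring),
      E_mul_left, E_chi_mul]
    split_ifs <;> simp
  simp [this]

lemma E_sum_sq (s : Finset (Finset ι)) (a : Finset ι → ℝ) :
    E q (fun x => (∑ S ∈ s, a S * chi q S x) ^ 2) = ∑ S ∈ s, a S ^ 2 := by
  have h := E_sum_mul q s (fun S => if S ∈ s then a S else 0) a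
  have e : ∀ x, ∑ S, (if S ∈ s then a S else 0) * chi q S x = ∑ S ∈ s, a S * chi q S x := by
    intro x; simp only [ite_mul, zero_mul]; rw [Finset.sum_ite_mem, Finset.univ_inter]
  simp only [e, ← sq] at h
  rw [h]
  exact Finset.sum_congr rfl fun S hS => by rw [if_pos hS, sq]

lemma parseval (f : (ι → Bool) → ℝ) : E q (fun x => f x ^ 2) = ∑ S, co q f S ^ 2 := by
  rw [← E_sum_sq]; exact E_congr q fun x => by rw [← expand]

lemma co_empty (f : (ι → Bool) → ℝ) : co q f ∅ = E q f := by simp [co, chi]

lemma Ex_chi (A S : Finset ι) :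
    Ex q A (chi q S) = fun x => if Disjoint S A then chi q S x else 0 := by
  funext x
  unfold Ex
  have e : ∀ y : ι → Bool, chi q S (A.piecewise y x) =
      ∏ e, if e ∈ S then phi q (if e ∈ A then y e else x e) else 1 := fun y => by
    rw [chi_eq]; rfl
  simp only [e]
  rw [E_prod q (fun e b => if e ∈ S then phi q (if e ∈ A then b else x e) else 1)]
  split_ifs with h
  · rw [chi_eq]
    refine Finset.prod_congr rfl fun e _ => ?_
    by_cases he : e ∈ S
    · simp only [if_pos he, if_neg (Finset.disjoint_left.mp h he)]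
      rw [← Finset.sum_mul, pr_sum, one_mul]
    · simp only [if_neg he, mul_one]; exact pr_sum q
  · obtain ⟨e, h1, h2⟩ := Finset.not_disjoint_iff.mp h
    refine Finset.prod_eq_zero (Finset.mem_univ e) ?_
    simp only [if_pos h1, if_pos h2]; exact phi_mean q

lemma P_chi (L B S : Finset ι) : P q L B (chi q S) =
    fun x => (if Disjoint S (L \ B) ∧ ¬ Disjoint S L then 1 else 0) * chi q S x := by
  funext x; unfold P; rw [Ex_chi, Ex_chi]
  by_cases h1 : Disjoint S L
  · have h2 : Disjoint S (L \ B) := Finset.disjoint_of_subset_right Finset.sdiff_subset h1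
    simp [h1, h2]
  · by_cases h2 : Disjoint S (L \ B) <;> simp [h1, h2]

variable {β : Type} [Fintype β] [DecidableEq β] (B : β → Finset ι)

/-- the characters fixed by the iterated projection -/
def Good {k : ℕ} (L : Fin k → Finset ι) (T : Fin k → β) (S : Finset ι) : Prop :=
  ∀ j, Disjoint S (L j \ B (T j)) ∧ ¬ Disjoint S (L j)

instance {k : ℕ} (L : Fin k → Finset ι) (T : Fin k → β) : DecidablePred (Good B L T) :=
  fun S => by unfold Good; infer_instance

lemma PT_chi (S : Finset ι) : ∀ (k : ℕ) (L : Fin k → Finset ι) (T : Fin k → β),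
    PT q B k L T (chi q S) = fun x => (if Good B L T S then 1 else 0) * chi q S x
  | 0, L, T => by
    funext x; rw [if_pos (show Good B L T S from fun j => j.elim0), one_mul]; rfl
  | k + 1, L, T => by
    simp only [PT]
    rw [PT_chi S k, P_mul_left, P_chi]
    funext x
    have : Good B L T S ↔ Good B (Fin.tail L) (Fin.tail T) S ∧
        (Disjoint S (L 0 \ B (T 0)) ∧ ¬ Disjoint S (L 0)) := by
      unfold Good; rw [Fin.forall_fin_succ, and_comm]; rfl
    by_cases h1 : Good B (Fin.tail L) (Fin.tail T) S <;>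
      by_cases h2 : Disjoint S (L 0 \ B (T 0)) ∧ ¬ Disjoint S (L 0) <;> simp [this, h1, h2]

lemma PT_expand (f : (ι → Bool) → ℝ) (k : ℕ) (L : Fin k → Finset ι) (T : Fin k → β)
    (x : ι → Bool) :
    PT q B k L T f x = ∑ S, (if Good B L T S then co q f S else 0) * chi q S x := by
  conv_lhs => rw [expand' q f, PT_sum]
  refine Finset.sum_congr rfl fun S _ => ?_
  rw [PT_mul_left, PT_chi]
  split_ifs <;> simp

lemma Ex_single (i : ι) (ψ : Bool → ℝ) (x : ι → Bool) :
    Ex q {i} (fun x => ψ (x i)) x = ∑ b, pr q b * ψ b := by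
  unfold Ex
  have h := E_prod q (fun j b => if j = i then ψ b else 1)
  simp only [Finset.prod_ite_eq', Finset.mem_univ, if_true] at h
  have e : ∀ y : ι → Bool, ({i} : Finset ι).piecewise y x i = y i := fun y => by
    simp [Finset.piecewise]
  simp only [e]
  rw [h, Finset.prod_eq_single i]
  · simp
  · intro j _ hj; simp only [if_neg hj, mul_one]; exact pr_sum q
  · simp

lemma E_inv_mul {i : ι} {a : (ι → Bool) → ℝ} (ha : Inv {i} a) (ψ : Bool → ℝ) :
    E q (fun x => a x * ψ (x i)) = E q a * ∑ b, pr q b * ψ b := by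
  rw [E_mul_inv q ha]; simp only [Ex_single]; rw [E_mul_right]

lemma inv_chi {A S : Finset ι} (h : Disjoint S A) : Inv A (chi q S) := fun x y => by
  unfold chi
  refine Finset.prod_congr rfl fun e he => ?_
  rw [Finset.piecewise_eq_of_notMem _ _ _ (Finset.disjoint_left.mp h he)]

/-- Bonami's lemma on the biased cube -/
lemma bonami_aux (J : Finset ι) : ∀ c : Finset ι → ℝ,
    E q (fun x => ((∑ S ∈ J.powerset, c S * chi q S x) ^ 2) ^ 2) ≤
      (∑ S ∈ J.powerset, (2 / sd q) ^ S.card * c S ^ 2) ^ 2 := by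
  induction J using Finset.induction_on with
  | empty =>
    intro c; simp [chi, E_const]
  | insert i J hi ih =>
    intro c
    set K := 2 / sd q with hK
    have hK0 : 0 < K := div_pos two_pos (sd_pos q)
    have hK2 : K ^ 2 = 4 / lam q := by rw [hK, div_pow, sd_sq]; unfold lam; norm_num
    have hK4 : 4 ≤ K := by
      have : (4 : ℝ) ^ 2 ≤ K ^ 2 := by
        rw [hK2, le_div_iff₀ (lam_pos q)]; nlinarith [lam_le q]
      exact le_of_sq_le_sq this hK0.le |> fun h => by
        nlinarith [abs_le_of_sq_le_sq' this hK0.le]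
    set a : (ι → Bool) → ℝ := fun x => ∑ S ∈ J.powerset, c S * chi q S x with ha
    set b : (ι → Bool) → ℝ := fun x => ∑ S ∈ J.powerset, c (insert i S) * chi q S x with hb
    have hdis : ∀ S ∈ J.powerset, i ∉ S := fun S hS h => hi (Finset.mem_powerset.mp hS h)
    have ia : Inv {i} a := Inv.sum _ fun S hS =>
      (Inv.const _).mul (inv_chi q (Finset.disjoint_singleton_right.mpr (hdis S hS)))
    have ib : Inv {i} b := Inv.sum _ fun S hS =>
      (Inv.const _).mul (inv_chi q (Finset.disjoint_singleton_right.mpr (hdis S hS)))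
    have e1 : ∀ x, ∑ S ∈ (insert i J).powerset, c S * chi q S x = a x + b x * phi q (x i) := by
      intro x
      rw [Finset.sum_powerset_insert hi, ha, hb]; simp only [Finset.sum_mul]
      congr 1
      refine Finset.sum_congr rfl fun S hS => ?_
      unfold chi; rw [Finset.prod_insert (hdis S hS)]; ring
    set A := ∑ S ∈ J.powerset, K ^ S.card * c S ^ 2 with hA
    set Bb := ∑ S ∈ J.powerset, K ^ S.card * c (insert i S) ^ 2 with hBb
    have e2 : ∑ S ∈ (insert i J).powerset, K ^ S.card * c S ^ 2 = A + K * Bb := by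
      rw [Finset.sum_powerset_insert hi, hA, hBb, Finset.mul_sum]
      congr 1
      refine Finset.sum_congr rfl fun S hS => ?_
      rw [Finset.card_insert_of_notMem (hdis S hS)]; ring
    have hA0 : 0 ≤ A := Finset.sum_nonneg fun S _ => by positivity
    have hB0 : 0 ≤ Bb := Finset.sum_nonneg fun S _ => by positivity
    have iha : E q (fun x => (a x ^ 2) ^ 2) ≤ A ^ 2 := ih c
    have ihb : E q (fun x => (b x ^ 2) ^ 2) ≤ Bb ^ 2 := ih fun S => c (insert i S)
    have iab : E q (fun x => a x ^ 2 * b x ^ 2) ≤ A * Bb := E_mul_le q hA0 hB0 iha ihb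
    simp only [e1, e2]
    have e3 : ∀ x, ((a x + b x * phi q (x i)) ^ 2) ^ 2 =
        (a x ^ 2) ^ 2 + (4 * (a x ^ 3 * b x) * phi q (x i) + (6 * (a x ^ 2 * b x ^ 2)
          * phi q (x i) ^ 2 + (4 * (a x * b x ^ 3) * phi q (x i) ^ 3
          + (b x ^ 2) ^ 2 * phi q (x i) ^ 4))) := fun x => by ring
    simp only [e3, E_add]
    rw [E_inv_mul q ((Inv.const _).mul ((ia.pow 3).mul ib)) (fun t => phi q t),
      E_inv_mul q ((Inv.const _).mul ((ia.pow 2).mul (ib.pow 2))) (fun t => phi q t ^ 2),
      E_inv_mul q ((ib.pow 2).pow 2) (fun t => phi q t ^ 4), phi_mean, phi_sq]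
    set m3 := ∑ b, pr q b * phi q b ^ 3 with hm3
    have h3 : E q (fun x => 4 * (a x * b x ^ 3) * phi q (x i) ^ 3) ≤
        2 * E q (fun x => a x ^ 2 * b x ^ 2) + 2 * m3 ^ 2 * E q (fun x => (b x ^ 2) ^ 2) := by
      rw [E_inv_mul q ((Inv.const _).mul (ia.mul (ib.pow 3))) (fun t => phi q t ^ 3),
        ← E_mul_right, ← E_mul_left, ← E_mul_left, ← E_add]
      refine E_mono q fun x => ?_
      rw [← hm3]
      nlinarith [sq_nonneg (a x * b x - m3 * b x ^ 2)]
    have hb4 : 0 ≤ E q (fun x => (b x ^ 2) ^ 2) := E_nonneg q fun x => by positivity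
    have h4 := mul_le_mul_of_nonneg_left (phi_four q) hb4
    have h5 := mul_le_mul_of_nonneg_right (phi_cube q) hb4
    rw [← hm3] at h5
    have hl : 0 < 1 / lam q := div_pos one_pos (lam_pos q)
    have h6 := mul_le_mul_of_nonneg_left ihb hl.le
    have hK2' : K ^ 2 = 4 * (1 / lam q) := by rw [hK2]; ring
    have h7 : 0 ≤ (K - 4) * (A * Bb) := mul_nonneg (by linarith) (mul_nonneg hA0 hB0)
    have h8 : (A + K * Bb) ^ 2 = A ^ 2 + 2 * K * (A * Bb) + 4 * (1 / lam q) * Bb ^ 2 := by
      rw [← hK2']; ring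
    rw [E_mul_left, E_mul_left, h8]
    have h9 : 0 ≤ 1 / lam q * Bb ^ 2 := by positivity
    nlinarith

lemma bonami (s : Finset (Finset ι)) (D : ℕ) (hs : ∀ S ∈ s, S.card ≤ D) (c : Finset ι → ℝ) :
    E q (fun x => ((∑ S ∈ s, c S * chi q S x) ^ 2) ^ 2) ≤
      (4 / lam q) ^ D * (∑ S ∈ s, c S ^ 2) ^ 2 := by
  have h := bonami_aux q (univ : Finset ι) (fun S => if S ∈ s then c S else 0)
  rw [Finset.powerset_univ] at h
  have e : ∀ x, ∑ S, (if S ∈ s then c S else 0) * chi q S x = ∑ S ∈ s, c S * chi q S x := by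
    intro x; simp only [ite_mul, zero_mul]; rw [Finset.sum_ite_mem, Finset.univ_inter]
  simp only [e] at h
  refine h.trans ?_
  set K := 2 / sd q with hK
  have hK0 : 0 < K := div_pos two_pos (sd_pos q)
  have hK2 : K ^ 2 = 4 / lam q := by rw [hK, div_pow, sd_sq]; unfold lam; norm_num
  have hK1 : 1 ≤ K := by
    have : (1 : ℝ) ^ 2 ≤ K ^ 2 := by
      rw [hK2, le_div_iff₀ (lam_pos q)]; nlinarith [lam_le q]
    nlinarith [abs_le_of_sq_le_sq' this hK0.le]
  rw [← hK2, ← pow_mul, mul_comm 2 D, pow_mul, ← mul_pow]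
  refine pow_le_pow_left₀ (Finset.sum_nonneg fun S _ => by positivity) ?_ 2
  have e2 : ∑ S, K ^ S.card * (if S ∈ s then c S else 0) ^ 2
      = ∑ S ∈ s, K ^ S.card * c S ^ 2 := by
    have : ∀ S, K ^ S.card * (if S ∈ s then c S else 0) ^ 2
        = if S ∈ s then K ^ S.card * c S ^ 2 else 0 := fun S => by split_ifs <;> simp
    simp only [this]; rw [Finset.sum_ite_mem, Finset.univ_inter]
  rw [e2, Finset.mul_sum]
  exact Finset.sum_le_sum fun S hS =>
    mul_le_mul_of_nonneg_right (pow_le_pow_right₀ hK1 (hs S hS)) (sq_nonneg _)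

lemma binf_eq (A : Finset ι) (f : (ι → Bool) → ℝ) :
    binf q A f = 2 * ∑ S, (if Disjoint S A then 0 else 1) * co q f S ^ 2 := by
  unfold binf
  rw [E_comm]
  have e : ∀ x, E q (fun ω => (f x - f (A.piecewise ω x)) ^ 2) =
      f x ^ 2 - 2 * (f x * Ex q A f x) + Ex q A (fun x => f x ^ 2) x := fun x => by
    rw [E_congr q (g := fun ω => (f x ^ 2 - (2 * f x) * f (A.piecewise ω x))
      + f (A.piecewise ω x) ^ 2) (fun ω => by ring), E_add, E_sub, E_const, E_mul_left]
    unfold Ex; ring
  simp only [e]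
  rw [E_add, E_sub, E_mul_left, E_Ex, parseval]
  have e2 : E q (fun x => f x * Ex q A f x) = ∑ S, co q f S * (if Disjoint S A then co q f S else 0) := by
    rw [← E_sum_mul]
    refine E_congr q fun x => ?_
    rw [← expand]
    congr 1
    conv_lhs => rw [expand' q f, Ex_sum]
    refine Finset.sum_congr rfl fun S _ => ?_
    rw [Ex_mul_left, Ex_chi]
    split_ifs <;> simp [*]
  rw [e2, Finset.mul_sum, Finset.mul_sum, ← Finset.sum_sub_distrib, ← Finset.sum_add_distrib]
  refine Finset.sum_congr rfl fun S _ => ?_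
  split_ifs <;> ring

/-- total (spectral) influence -/
noncomputable def tinf (f : (ι → Bool) → ℝ) : ℝ := ∑ S, (S.card : ℝ) * co q f S ^ 2

lemma tinf_nonneg (f : (ι → Bool) → ℝ) : 0 ≤ tinf q f :=
  Finset.sum_nonneg fun S _ => by positivity

lemma sum_binf_le (V : Finset β) (hd : ∀ u ∈ V, ∀ v ∈ V, u ≠ v → Disjoint (B u) (B v))
    (f : (ι → Bool) → ℝ) : ∑ v ∈ V, binf q (B v) f ≤ 2 * tinf q f := by
  simp only [binf_eq]
  rw [← Finset.mul_sum, Finset.sum_comm]
  refine mul_le_mul_of_nonneg_left (Finset.sum_le_sum fun S _ => ?_) (by norm_num)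
  rw [← Finset.sum_mul]
  refine mul_le_mul_of_nonneg_right ?_ (sq_nonneg _)
  have h1 : ∑ v ∈ V, (if Disjoint S (B v) then (0 : ℝ) else 1) ≤ ∑ v ∈ V, ((S ∩ B v).card : ℝ) :=
    Finset.sum_le_sum fun v _ => by
      split_ifs with h
      · positivity
      · have : 0 < (S ∩ B v).card :=
          Finset.card_pos.mpr (Finset.not_disjoint_iff_nonempty_inter.mp h)
        exact_mod_cast this
  refine h1.trans ?_
  rw [← Nat.cast_sum, ← Finset.card_biUnion]
  · exact_mod_cast Finset.card_le_card (Finset.biUnion_subset.mpr fun v _ => Finset.inter_subset_left)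
  · intro u hu v hv huv
    exact Finset.disjoint_of_subset_left Finset.inter_subset_right
      (Finset.disjoint_of_subset_right Finset.inter_subset_right (hd u hu v hv huv))

/-- discrete derivative -/
noncomputable def der (e : ι) (f : (ι → Bool) → ℝ) (x : ι → Bool) : ℝ :=
  f (Function.update x e true) - f (Function.update x e false)

lemma inv_der (e : ι) (f : (ι → Bool) → ℝ) : Inv {e} (der e f) := fun x y => by
  have : ∀ b, Function.update (({e} : Finset ι).piecewise y x) e b = Function.update x e b := by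
    intro b; funext j
    by_cases h : j = e
    · subst h; simp
    · simp [Function.update_of_ne h, Finset.piecewise, h]
  unfold der; rw [this, this]

lemma binf_single (e : ι) (f : (ι → Bool) → ℝ) :
    binf q {e} f = 2 * lam q * E q (fun x => der e f x ^ 2) := by
  unfold binf
  have h1 : ∀ ω x : ι → Bool, (f x - f (({e} : Finset ι).piecewise ω x)) ^ 2
      = der e f x ^ 2 * (if x e = ω e then 0 else 1) := fun ω x => by
    have a : ({e} : Finset ι).piecewise ω x = Function.update x e (ω e) := by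
      funext j
      by_cases h : j = e
      · subst h; simp
      · simp [Function.update_of_ne h, Finset.piecewise, h]
    have b : f x = f (Function.update x e (x e)) := by rw [Function.update_eq_self]
    rw [a, b]; unfold der
    cases x e <;> cases ω e <;> simp <;> ring
  simp only [h1]
  have h2 : ∀ ω : ι → Bool, E q (fun x => der e f x ^ 2 * (if x e = ω e then 0 else 1)) =
      E q (fun x => der e f x ^ 2) * ∑ b, pr q b * (if b = ω e then 0 else 1) := fun ω =>
    E_inv_mul q ((inv_der e f).pow 2) (fun b => if b = ω e then 0 else 1)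
  simp only [h2]
  rw [E_inv_mul q (Inv.const _) (fun c => ∑ b, pr q b * (if b = c then 0 else 1)), E_const]
  simp [pr, lam]; ring

lemma tinf_eq (f : (ι → Bool) → ℝ) :
    tinf q f = lam q * ∑ e, E q (fun x => der e f x ^ 2) := by
  have h : ∑ e : ι, binf q {e} f = 2 * tinf q f := by
    simp only [binf_eq]
    rw [← Finset.mul_sum, Finset.sum_comm]
    congr 1
    refine Finset.sum_congr rfl fun S _ => ?_
    rw [← Finset.sum_mul]
    congr 1
    simp only [Finset.disjoint_singleton_right, ite_not]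
    rw [Finset.sum_ite_mem, Finset.univ_inter]; simp
  simp only [binf_single] at h
  rw [← Finset.mul_sum] at h
  linarith

end Crest.Agent.FK
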