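import Crest.Agent.FK.Class

/-! The influence lower bound for symmetric Boolean functions of uniform hypergraphs. -/

set_option autoImplicit false
set_option linter.unusedSectionVars false
set_option linter.unusedVariables false
set_option linter.unusedSimpArgs false
set_option linter.unnecessarySeqFocus false

namespace Crest.Agent.FK
open Finset

variable {ι : Type} [Fintype ι] [DecidableEq ι] (q : Pr) {n r : ℕ} (G : HG ι n r)

lemma card_le_pow (S : Finset ι) : S.card ≤ (G.VS S).card ^ r := by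
  refine le_trans ?_ (Nat.choose_le_pow _ _)
  rw [← Finset.card_powersetCard]
  refine Finset.card_le_card_of_injOn G.vs (fun e he => ?_) G.inj.injOn
  exact Finset.mem_coe.mpr (Finset.mem_powersetCard.mpr
    ⟨Finset.subset_biUnion_of_mem G.vs (Finset.mem_coe.mp he), G.card_vs e⟩)

lemma VS_card_le (S : Finset ι) : (G.VS S).card ≤ r * S.card := by
  refine Finset.card_biUnion_le.trans ?_
  simp [G.card_vs, mul_comm]

lemma VS_card_pos (hr : 0 < r) {S : Finset ι} (hS : S.Nonempty) : 0 < (G.VS S).card := by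
  obtain ⟨e, he⟩ := hS
  have := Finset.card_le_card (Finset.subset_biUnion_of_mem G.vs he)
  rw [G.card_vs] at this
  exact lt_of_lt_of_le hr this

lemma sd_le : sd q ≤ 1 / 2 := by
  have h := sd_sq q
  have h1 := lam_le q
  unfold lam at h1
  have h0 := sd_pos q
  nlinarith

lemma log_kappa : 4 / lam q ≤ Real.exp (2 / sd q) := by
  have h0 := sd_pos q
  have e : 4 / lam q = (2 / sd q) ^ 2 := by rw [div_pow, sd_sq]; unfold lam; norm_num
  have h1 : 2 / sd q ≤ Real.exp (1 / sd q) := by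
    have h2 := Real.add_one_le_exp (1 / sd q - 1)
    have h3 : Real.exp (1 / sd q) = Real.exp (1 / sd q - 1) * Real.exp 1 := by
      rw [← Real.exp_add]; ring_nf
    have h4 := Real.add_one_le_exp (1 : ℝ)
    have h5 : 0 < 1 / sd q := by positivity
    have h6 : 2 / sd q = 2 * (1 / sd q) := by ring
    rw [h3, h6]; nlinarith
  rw [e, show 2 / sd q = (2 : ℕ) * (1 / sd q) by push_cast; ring, Real.exp_nat_mul]
  exact pow_le_pow_left₀ (by positivity) (by push_cast; linarith [h1, show 2 / sd q = 2 * (1 / sd q) by ring]) 2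

lemma aux_b1 (t : ℕ) {δ μ I : ℝ} (hδ : 0 ≤ δ) (hμ : 0 ≤ μ) (hI : 0 ≤ I) :
    2 * (2 ^ t * (δ * μ + 4 * 3 ^ t * δ * (2 * I + μ)) + δ * μ) ≤ 6 ^ t * (16 * δ * (I + μ)) := by
  have p2 : (1 : ℝ) ≤ 2 ^ t := one_le_pow₀ (by norm_num)
  have p3 : (1 : ℝ) ≤ 3 ^ t := one_le_pow₀ (by norm_num)
  rw [show (6 : ℝ) ^ t = 2 ^ t * 3 ^ t by rw [← mul_pow]; norm_num]
  have c0 : 0 ≤ δ * μ := by positivity
  have c1 : 2 ^ t * (δ * μ) ≤ 2 ^ t * 3 ^ t * (δ * μ) := by
    rw [mul_assoc]
    exact mul_le_mul_of_nonneg_left (le_mul_of_one_le_left c0 p3) (by positivity)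
  have c2 : δ * μ ≤ 2 ^ t * (δ * μ) := le_mul_of_one_le_left c0 p2
  have c3 : 0 ≤ 2 ^ t * 3 ^ t * (δ * μ) := by positivity
  nlinarith

lemma aux_b2 {r : ℝ} (hr : 2 ≤ r) : 2 * r * Real.exp 1 * 6 ≤ Real.exp (4 * r) := by
  have h1 := Real.quadratic_le_exp_of_nonneg (x := 4 * r - 1) (by linarith)
  have h2 : Real.exp (4 * r) = Real.exp (4 * r - 1) * Real.exp 1 := by
    rw [← Real.exp_add]; ring_nf
  have h3 : 12 * r ≤ Real.exp (4 * r - 1) := by nlinarith
  rw [h2]; nlinarith [Real.exp_pos 1]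

lemma aux_c {t L : ℝ} (ht : 1 ≤ t) (hL : 720 ≤ L) :
    L / 32 + t * L / 16 + t * (L / 32 - L) ≤ 8 * (-L / 32) + 2 * t * (-5 * L / 16) := by
  nlinarith

set_option maxHeartbeats 1000000 in
theorem class_small (f : (ι → Bool) → ℝ) (hf : ∀ x, f x = 0 ∨ f x = 1) (hsym : G.Symm f)
    (hr : 2 ≤ r) {L Z : ℝ} (hn : (n : ℝ) = Real.exp L) (hL : 360 * r ≤ L) (hZ0 : 0 < Z)
    (hZ : Z ^ (r - 1) ≤ L ^ r) (D : ℕ) (hD : (D : ℝ) ≤ lam q / (64 * r) ^ 2 * Z)
    (w : ℕ) (hw0 : 0 < w) (hw : w ≤ r * D) :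
    ∑ S ∈ G.cls w D, co q f S ^ 2 ≤ Real.exp (L / 128 + L / 90) *
      (16 * Real.exp (-L / 16) * (tinf q f + E q f)) := by
  have hμ : 0 ≤ E q f := E_nonneg q fun x => by rcases hf x with h | h <;> simp [h]
  have hI := tinf_nonneg q f
  by_cases hwn : n < w
  · rw [Finset.sum_eq_zero]
    · positivity
    · intro S hS
      have h1 := (Finset.mem_filter.mp hS).2.1
      have h2 : (G.VS S).card ≤ n := by simpa using Finset.card_le_univ (G.VS S)
      omega
  push Not at hwn
  have hr' : (2 : ℝ) ≤ r := by exact_mod_cast hr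
  have hL1 : 720 ≤ L := by linarith
  have hl0 := lam_pos q
  have hl1 := lam_le q
  have hs0 := sd_pos q
  have hs1 := sd_le q
  have hss : sd q ^ 2 = lam q := sd_sq q
  have hZ2 : Z ≤ L ^ 2 := by
    have h1 : L ^ r ≤ (L ^ 2) ^ (r - 1) := by
      rw [← pow_mul]; exact pow_le_pow_right₀ (by linarith) (by omega)
    exact le_of_pow_le_pow_left₀ (by omega) (by positivity) (hZ.trans h1)
  have hD2 : (D : ℝ) ≤ lam q / (64 * r) ^ 2 * L ^ 2 :=
    hD.trans (mul_le_mul_of_nonneg_left hZ2 (by positivity))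
  set T := ⌈L / (256 * r ^ 2)⌉₊ with hT
  have hT0 : 0 < L / (256 * r ^ 2) := by positivity
  have hT1 : 1 ≤ T := Nat.ceil_pos.mpr hT0
  have hTl : L / (256 * r ^ 2) ≤ T := Nat.le_ceil _
  have hTu : (T : ℝ) ≤ L / (256 * r ^ 2) + 1 := (Nat.ceil_lt_add_one hT0.le).le
  set t := min (w / (2 * r) + 1) T with ht
  set D' := min D (w ^ r) with hD'
  have ecls : G.cls w D = G.cls w D' := by
    ext S
    simp only [HG.cls, Finset.mem_filter, Finset.mem_univ, true_and, hD', le_min_iff]
    constructor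
    · rintro ⟨h1, h2⟩; exact ⟨h1, h2, h1 ▸ card_le_pow G S⟩
    · rintro ⟨h1, h2, _⟩; exact ⟨h1, h2⟩
  have ht1 : 1 ≤ t := le_min (Nat.le_add_left _ _) hT1
  have ht1' : (1 : ℝ) ≤ t := by exact_mod_cast ht1
  have hdiv : 2 * r * (w / (2 * r)) ≤ w := Nat.mul_div_le _ _
  have ht2 : 2 * r * (t - 1) ≤ w := by
    refine le_trans (Nat.mul_le_mul_left _ ?_) hdiv
    have := min_le_left (w / (2 * r) + 1) T
    omega
  have htw : t ≤ w := by
    have h1 : 4 * (t - 1) ≤ 2 * r * (t - 1) := Nat.mul_le_mul_right _ (by omega)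
    omega
  have hw' : (0 : ℝ) < w := by exact_mod_cast hw0
  -- (a)
  have ha : (D' : ℝ) * (2 / sd q) ≤ t * L / 16 := by
    rcases min_choice (w / (2 * r) + 1) T with h | h
    · have h1 : (w : ℝ) ≤ 2 * r * t := by
        have : w ≤ 2 * r * t := by
          rw [ht, h]; exact (Nat.lt_mul_div_succ w (by omega)).le
        exact_mod_cast this
      set y := sd q / (64 * r) with hy
      have hy0 : 0 < y := by positivity
      have hy1 : y ≤ 1 := by rw [hy, div_le_one (by positivity)]; linarith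
      have hyy : lam q / (64 * r) ^ 2 = y ^ 2 := by rw [hy, div_pow, hss]
      have h2 : (D' : ℝ) ^ r ≤ (w * (y * L)) ^ r := by
        have a1 : (D' : ℝ) ≤ (w : ℝ) ^ r := by exact_mod_cast min_le_right D (w ^ r)
        have a2 : (D' : ℝ) ≤ y ^ 2 * Z := by
          rw [← hyy]; exact le_trans (by exact_mod_cast min_le_left D (w ^ r)) hD
        have a3 : (D' : ℝ) ^ (r - 1) ≤ (y ^ 2 * Z) ^ (r - 1) :=
          pow_le_pow_left₀ (by positivity) a2 _
        have a4 : (y ^ 2) ^ (r - 1) ≤ y ^ r := by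
          rw [← pow_mul]; exact pow_le_pow_of_le_one hy0.le hy1 (by omega)
        calc (D' : ℝ) ^ r = D' * D' ^ (r - 1) := by
              rw [← pow_succ']; congr 1; omega
          _ ≤ (w : ℝ) ^ r * ((y ^ 2) ^ (r - 1) * Z ^ (r - 1)) := by
              rw [← mul_pow]; exact mul_le_mul a1 a3 (by positivity) (by positivity)
          _ ≤ (w : ℝ) ^ r * (y ^ r * L ^ r) :=
              mul_le_mul_of_nonneg_left (mul_le_mul a4 hZ (by positivity) (by positivity))
                (by positivity)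
          _ = _ := by rw [mul_pow, mul_pow]
      have h3 : (D' : ℝ) ≤ w * (y * L) := le_of_pow_le_pow_left₀ (by omega) (by positivity) h2
      calc (D' : ℝ) * (2 / sd q) ≤ w * (y * L) * (2 / sd q) :=
            mul_le_mul_of_nonneg_right h3 (by positivity)
        _ = w * (L / (32 * r)) := by rw [hy]; field_simp; norm_num
        _ ≤ (2 * r * t) * (L / (32 * r)) := mul_le_mul_of_nonneg_right h1 (by positivity)
        _ = _ := by field_simp; norm_num
    · have h1 : (t : ℝ) = T := by rw [ht, h]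
      have a2 : (D' : ℝ) ≤ lam q / (64 * r) ^ 2 * L ^ 2 :=
        le_trans (by exact_mod_cast min_le_left D (w ^ r)) hD2
      calc (D' : ℝ) * (2 / sd q) ≤ lam q / (64 * r) ^ 2 * L ^ 2 * (2 / sd q) :=
            mul_le_mul_of_nonneg_right a2 (by positivity)
        _ = (2 * sd q) * (L / (256 * r ^ 2) * L / 16) := by rw [← hss]; field_simp; norm_num
        _ ≤ 1 * (L / (256 * r ^ 2) * L / 16) :=
            mul_le_mul_of_nonneg_right (by linarith) (by positivity)
        _ ≤ _ := by rw [one_mul, h1]; gcongr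
  have ha' : (4 / lam q) ^ D' ≤ Real.exp (t * L / 16) := by
    refine (pow_le_pow_left₀ (by positivity) (log_kappa q) D').trans ?_
    rw [← Real.exp_nat_mul]; exact Real.exp_le_exp.mpr ha
  have hq32 := Real.quadratic_le_exp_of_nonneg (x := L / 32) (by linarith)
  have hb : (w : ℝ) ≤ Real.exp (L / 32) := by
    have h1 : (w : ℝ) ≤ r * D := by exact_mod_cast hw
    have h2 : (r : ℝ) * (lam q / (64 * r) ^ 2 * L ^ 2) ≤ L ^ 2 / 2048 := by
      have : (r : ℝ) * (lam q / (64 * r) ^ 2 * L ^ 2) = lam q / r * (L ^ 2 / 4096) := by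
        field_simp; norm_num
      rw [this]
      have h3 : lam q / r ≤ 1 := by rw [div_le_one (by linarith)]; linarith
      nlinarith [sq_nonneg L]
    have h3 := mul_le_mul_of_nonneg_left hD2 (by linarith : (0 : ℝ) ≤ r)
    nlinarith
  have hc : (4 : ℝ) ≤ Real.exp (L / 32) := by
    have := sq_nonneg (L / 32); linarith
  have hb' : ((w : ℝ) / n) ^ t ≤ Real.exp (t * (L / 32 - L)) := by
    rw [Real.exp_nat_mul]
    refine pow_le_pow_left₀ (by positivity) ?_ t
    rw [Real.exp_sub, hn]; gcongr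
  have key := class_bound q G f hf hsym w D' t (by omega) hw0 hwn htw ht1 ht2
    (θ := Real.exp (-L / 32)) (ρ := Real.exp (-5 * L / 16)) (s := Real.exp (L / 4) * 3 ^ t)
    (Real.exp_pos _) (Real.exp_pos _) (by positivity) ?_ ?_
  · rw [ecls]
    refine key.trans ?_
    have e1 : Real.exp (-L / 32) ^ 2 = Real.exp (-L / 16) := by
      rw [← Real.exp_nat_mul]; congr 1; push_cast; ring
    have e2 : 4 * Real.exp (-5 * L / 16) * (Real.exp (L / 4) * 3 ^ t)
        = 4 * 3 ^ t * Real.exp (-L / 16) := by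
      rw [show -L / 16 = -5 * L / 16 + L / 4 by ring, Real.exp_add]; ring
    rw [e1, e2]
    set δ := Real.exp (-L / 16) with hδ
    have hδ0 : 0 < δ := Real.exp_pos _
    have b1 := aux_b1 t hδ0.le hμ hI
    refine (mul_le_mul_of_nonneg_left b1 (by positivity)).trans ?_
    rw [← mul_assoc, ← mul_pow]
    refine mul_le_mul_of_nonneg_right ?_ (by positivity)
    have b2 := aux_b2 hr'
    refine (pow_le_pow_left₀ (by positivity) b2 t).trans ?_
    rw [← Real.exp_nat_mul]
    refine Real.exp_le_exp.mpr ?_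
    have h1 : (t : ℝ) ≤ T := by exact_mod_cast min_le_right _ _
    have h2 : L / (256 * r ^ 2) * (4 * r) ≤ L / 128 := by
      have : L / (256 * r ^ 2) * (4 * r) = L / (64 * r) := by field_simp; norm_num
      rw [this]; gcongr; linarith
    have h3 := mul_le_mul_of_nonneg_right (h1.trans hTu) (by linarith : (0 : ℝ) ≤ 4 * r)
    rw [add_mul] at h3
    linarith
  · rw [mul_pow, ← Real.exp_nat_mul, ← pow_mul, mul_comm t 4, pow_mul, hn]
    refine mul_le_mul (le_of_eq (by congr 1; push_cast; ring))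
      (pow_le_pow_left₀ (by norm_num) (by norm_num) t) (by positivity) (by positivity)
  · calc 4 * (4 / lam q) ^ D' * ((w : ℝ) / n) ^ t
        ≤ Real.exp (L / 32) * Real.exp (t * L / 16) * Real.exp (t * (L / 32 - L)) := by
          gcongr
      _ ≤ _ := by
          rw [← Real.exp_nat_mul, ← Real.exp_nat_mul, ← Real.exp_add, ← Real.exp_add,
            ← Real.exp_add]
          refine Real.exp_le_exp.mpr ?_
          push_cast
          exact aux_c ht1' hL1

lemma var_eq (f : (ι → Bool) → ℝ) (hf : ∀ x, f x = 0 ∨ f x = 1) :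
    E q f * (1 - E q f) = ∑ S ∈ univ.erase ∅, co q f S ^ 2 := by
  have ef : E q (fun x => f x ^ 2) = E q f := E_congr q fun x => by
    rcases hf x with h | h <;> simp [h]
  have h := parseval q f
  rw [ef, ← Finset.add_sum_erase _ _ (Finset.mem_univ ∅), co_empty] at h
  linarith

lemma poincare (f : (ι → Bool) → ℝ) (hf : ∀ x, f x = 0 ∨ f x = 1) :
    E q f * (1 - E q f) ≤ 1 / 4 * ∑ e, E q (fun x => der e f x ^ 2) := by
  have h1 : E q f * (1 - E q f) ≤ tinf q f := by
    rw [var_eq q f hf]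
    refine le_trans (Finset.sum_le_sum fun S hS => ?_)
      (Finset.sum_le_sum_of_subset_of_nonneg (Finset.subset_univ (univ.erase ∅))
        fun S _ _ => by positivity)
    have : (1 : ℝ) ≤ S.card := by
      exact_mod_cast Finset.card_pos.mpr (Finset.nonempty_iff_ne_empty.mpr (Finset.mem_erase.mp hS).1)
    exact le_mul_of_one_le_left (sq_nonneg _) this
  rw [tinf_eq] at h1
  exact h1.trans (mul_le_mul_of_nonneg_right (lam_le q)
    (Finset.sum_nonneg fun e _ => E_nonneg q fun x => sq_nonneg _))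

theorem var_le_half (f : (ι → Bool) → ℝ) (hf : ∀ x, f x = 0 ∨ f x = 1) (hsym : G.Symm f)
    (hr : 2 ≤ r) {L Z : ℝ} (hn : (n : ℝ) = Real.exp L) (hL : 360 * r ≤ L) (hZ0 : 0 < Z)
    (hZ : Z ^ (r - 1) ≤ L ^ r) (hhalf : E q f ≤ 1 / 2) :
    E q f * (1 - E q f) * Z ≤ 3 * (64 * r) ^ 2 * ∑ e, E q (fun x => der e f x ^ 2) := by
  have hμ : 0 ≤ E q f := E_nonneg q fun x => by rcases hf x with h | h <;> simp [h]
  have hI := tinf_nonneg q f
  have hr' : (2 : ℝ) ≤ r := by exact_mod_cast hr
  have hL1 : 720 ≤ L := by linarith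
  have hl0 := lam_pos q
  have hl1 := lam_le q
  have hZ2 : Z ≤ L ^ 2 := by
    have h1 : L ^ r ≤ (L ^ 2) ^ (r - 1) := by
      rw [← pow_mul]; exact pow_le_pow_right₀ (by linarith) (by omega)
    exact le_of_pow_le_pow_left₀ (by omega) (by positivity) (hZ.trans h1)
  set X := lam q / (64 * r) ^ 2 * Z with hX
  have hX0 : 0 < X := by positivity
  set D := ⌊X⌋₊ with hDdef
  have hD : (D : ℝ) ≤ X := Nat.floor_le hX0.le
  have hD1 : X < D + 1 := Nat.lt_floor_add_one X
  set K := Real.exp (L / 128 + L / 90) * (16 * Real.exp (-L / 16)) with hK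
  have hK0 : 0 < K := by positivity
  set Var := E q f * (1 - E q f) with hVar
  have low : ∑ S ∈ (univ.erase ∅).filter (fun S => S.card ≤ D), co q f S ^ 2 ≤
      r * D * K * (tinf q f + E q f) := by
    rw [← Finset.sum_fiberwise_of_maps_to (t := Finset.Icc 1 (r * D))
      (g := fun S => (G.VS S).card)]
    · refine le_trans (Finset.sum_le_sum (g := fun _ => K * (tinf q f + E q f)) fun w hw => ?_) ?_
      · obtain ⟨h1, h2⟩ := Finset.mem_Icc.mp hw
        refine le_trans (Finset.sum_le_sum_of_subset_of_nonneg ?_ fun S _ _ => sq_nonneg _)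
          ((class_small q G f hf hsym hr hn hL hZ0 hZ D hD w h1 h2).trans (le_of_eq (by
            rw [hK]; ring)))
        intro S hS
        simp only [HG.cls, Finset.mem_filter, Finset.mem_univ, true_and] at hS ⊢
        exact ⟨hS.2, hS.1.2⟩
      · rw [Finset.sum_const, nsmul_eq_mul, Nat.card_Icc]
        simp [mul_assoc]
    · intro S hS
      obtain ⟨h1, h2⟩ := Finset.mem_filter.mp hS
      refine Finset.mem_Icc.mpr ⟨VS_card_pos G (by omega)
        (Finset.nonempty_iff_ne_empty.mpr (Finset.mem_erase.mp h1).1), ?_⟩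
      exact (VS_card_le G S).trans (Nat.mul_le_mul_left _ h2)
  have high : ((D : ℝ) + 1) * ∑ S ∈ (univ.erase ∅).filter (fun S => ¬ S.card ≤ D), co q f S ^ 2
      ≤ tinf q f := by
    rw [Finset.mul_sum]
    refine le_trans (Finset.sum_le_sum fun S hS => ?_)
      (Finset.sum_le_sum_of_subset_of_nonneg (Finset.subset_univ _) fun S _ _ => by positivity)
    have : (D : ℝ) + 1 ≤ S.card := by
      have := (Finset.mem_filter.mp hS).2
      exact_mod_cast (by omega : D + 1 ≤ S.card)
    exact mul_le_mul_of_nonneg_right this (sq_nonneg _)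
  have split := var_eq q f hf
  rw [← Finset.sum_filter_add_sum_filter_not _ (fun S => S.card ≤ D), ← hVar] at split
  have small : 4 * ((D : ℝ) + 1) * (r * D * K) ≤ 1 := by
    have hD0 : (0 : ℝ) ≤ D := by positivity
    have h1 : ((D : ℝ) + 1) * D ≤ 2 * D ^ 2 := by
      rcases Nat.eq_zero_or_pos D with h | h
      · rw [h]; simp
      · have : (1 : ℝ) ≤ D := by exact_mod_cast h
        nlinarith
    have h2 : (D : ℝ) ≤ L ^ 2 / (16384 * r ^ 2) := by
      refine hD.trans ?_
      calc X ≤ (1 / 4) / (64 * r) ^ 2 * L ^ 2 := by rw [hX]; gcongr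
        _ = _ := by field_simp; norm_num
    have h3 : (r : ℝ) * D ^ 2 ≤ L ^ 4 / 2 ^ 31 := by
      calc (r : ℝ) * D ^ 2 ≤ r * (L ^ 2 / (16384 * r ^ 2)) ^ 2 := by gcongr
        _ = L ^ 4 / (2 ^ 28 * r ^ 3) := by field_simp; norm_num
        _ ≤ L ^ 4 / (2 ^ 28 * 2 ^ 3) := by gcongr
        _ = _ := by norm_num
    have h4 := Real.pow_div_factorial_le_exp (L / 25) (by linarith) 4
    have h5 : K * Real.exp (L / 25) ≤ 16 := by
      rw [hK, mul_comm 16, ← mul_assoc, ← Real.exp_add, mul_right_comm, ← Real.exp_add]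
      have : Real.exp (L / 128 + L / 90 + -L / 16 + L / 25) ≤ 1 :=
        Real.exp_le_one_iff.mpr (by linarith)
      linarith
    have h6 : K * (L ^ 4 / (25 ^ 4 * 24)) ≤ 16 := by
      refine le_trans (mul_le_mul_of_nonneg_left ?_ hK0.le) h5
      refine le_trans (le_of_eq ?_) h4
      simp [Nat.factorial]; ring
    have h7 : 4 * ((D : ℝ) + 1) * (r * D * K) ≤ 8 * (r * D ^ 2) * K := by
      have := mul_le_mul_of_nonneg_left h1 (by positivity : (0 : ℝ) ≤ 4 * r * K)
      nlinarith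
    have h8 := mul_le_mul_of_nonneg_right h3 hK0.le
    nlinarith
  have hV : E q f ≤ 2 * Var := by rw [hVar]; nlinarith
  have hV0 : 0 ≤ Var := by linarith
  set η := (r : ℝ) * D * K with hη
  have hη0 : 0 ≤ η := by positivity
  have hD0 : (0 : ℝ) ≤ D := by positivity
  have m1 : ((D : ℝ) + 1) * Var ≤ 5 / 2 * tinf q f := by
    have a1 := mul_le_mul_of_nonneg_left low (by positivity : (0 : ℝ) ≤ (D : ℝ) + 1)
    have a2 : ((D : ℝ) + 1) * (η * (tinf q f + E q f)) ≤ 1 / 4 * (tinf q f + 2 * Var) := by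
      rw [← mul_assoc]
      exact mul_le_mul (by linarith) (by linarith) (by positivity) (by norm_num)
    have a3 : ((D : ℝ) + 1) * Var ≤ 1 / 4 * (tinf q f + 2 * Var) + tinf q f := by
      rw [split, mul_add]; rw [← split]; linarith
    nlinarith
  have m2 : X * Var ≤ 3 * tinf q f := by nlinarith
  rw [tinf_eq, hX] at m2
  have m3 : lam q * (Var * Z) ≤ lam q * (3 * (64 * r) ^ 2 * ∑ e, E q (fun x => der e f x ^ 2)) := by
    have := mul_le_mul_of_nonneg_left m2 (by positivity : (0 : ℝ) ≤ (64 * r) ^ 2)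
    calc lam q * (Var * Z) = (64 * r) ^ 2 * (lam q / (64 * r) ^ 2 * Z * Var) := by field_simp
      _ ≤ _ := this
      _ = _ := by ring
  exact le_of_mul_le_mul_left m3 hl0

theorem var_le (f : (ι → Bool) → ℝ) (hf : ∀ x, f x = 0 ∨ f x = 1) (hsym : G.Symm f)
    (hr : 2 ≤ r) {L Z : ℝ} (hn : (n : ℝ) = Real.exp L) (hL : 360 * r ≤ L) (hZ0 : 0 < Z)
    (hZ : Z ^ (r - 1) ≤ L ^ r) :
    E q f * (1 - E q f) * Z ≤ 3 * (64 * r) ^ 2 * ∑ e, E q (fun x => der e f x ^ 2) := by
  rcases le_total (E q f) (1 / 2) with h | h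
  · exact var_le_half q G f hf hsym hr hn hL hZ0 hZ h
  · have e : E q (fun x => 1 - f x) = 1 - E q f := by rw [E_sub, E_const]
    have := var_le_half q G (fun x => 1 - f x) (fun x => by rcases hf x with h | h <;> simp [h])
      (fun σ x => by simp only [hsym σ x]) hr hn hL hZ0 hZ (by rw [e]; linarith)
    rw [e] at this
    have e2 : ∀ i, E q (fun x => der i (fun x => 1 - f x) x ^ 2) = E q (fun x => der i f x ^ 2) :=
      fun i => E_congr q fun x => by unfold der; ring
    simp only [e2] at this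
    linarith

end Crest.Agent.FK
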